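import Vale.Agent.P159.T1.D.Stmts

/-!
The choice of the constants for the assembly of the direct route.
-/

open Filter Topology

namespace Vale.Agent.P159.T1.D.H172

open Vale.Agent.P159.T1.D

lemma ang_tendsto : Tendsto ang atTop (𝓝 0) := by
  have h1 : Tendsto (fun q : ℕ => 1 / (q : ℝ)) atTop (𝓝 0) := tendsto_one_div_atTop_nhds_zero_nat
  have h2 : Tendsto Real.arctan (𝓝 0) (𝓝 (Real.arctan 0)) :=
    Real.continuous_arctan.continuousAt
  rw [Real.arctan_zero] at h2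
  exact h2.comp h1

/-- the algebra behind the exponent `1 / 4` -/
lemma expo_le {Y δ V : ℝ} (hY : 2 / Real.pi ≤ Y) (hδ : 0 ≤ δ)
    (hV : V = Real.sqrt (Real.pi * Y / 2) + δ) :
    2 / Y * (V / (2 * Real.pi) - 1 / (4 * Real.pi)) ≤ 1 / 4 + δ / 2 := by
  have hpi := Real.pi_pos
  have hY0 : 0 < Y := lt_of_lt_of_le (by positivity) hY
  set v := Real.sqrt (Real.pi * Y / 2) with hv
  have hv2 : v ^ 2 = Real.pi * Y / 2 := Real.sq_sqrt (by positivity)
  have hY2 : 2 ≤ Real.pi * Y := by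
    rw [div_le_iff₀ hpi] at hY
    linarith
  have hv1 : 1 ≤ v := by
    rw [hv]
    apply Real.le_sqrt_of_sq_le
    linarith
  have e : 2 / Y * (V / (2 * Real.pi) - 1 / (4 * Real.pi)) = (v + δ - 1 / 2) / (2 * v ^ 2) := by
    rw [hv2, hV]
    field_simp
    ring
  rw [e, div_le_iff₀ (by positivity)]
  nlinarith [sq_nonneg (v - 1), mul_nonneg hδ (by nlinarith : (0 : ℝ) ≤ v ^ 2 - 1)]

lemma choice {Y ε : ℝ} (hY : 2 / Real.pi ≤ Y) (hε : 0 < ε) :
    ∃ V : ℝ, 0 < V ∧ 1 < 2 * V ^ 2 / (Real.pi * Y) ∧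
      ∀ᶠ q : ℕ in atTop,
        2 / Y * (V / (2 * Real.pi - ang q) - 1 / (4 * Real.pi)) ≤ 1 / 4 + ε / 4 := by
  have hpi := Real.pi_pos
  have hY0 : 0 < Y := lt_of_lt_of_le (by positivity) hY
  have hsq : 0 < Real.sqrt (Real.pi * Y / 2) := Real.sqrt_pos.2 (by positivity)
  have hs2 : Real.sqrt (Real.pi * Y / 2) ^ 2 = Real.pi * Y / 2 := Real.sq_sqrt (by positivity)
  refine ⟨Real.sqrt (Real.pi * Y / 2) + ε / 4, by positivity, ?_, ?_⟩
  · rw [lt_div_iff₀ (by positivity)]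
    nlinarith [mul_pos hsq hε, sq_nonneg ε]
  · have h1 := expo_le hY (by positivity : (0 : ℝ) ≤ ε / 4) rfl
    have h2 : Tendsto (fun q : ℕ => 2 / Y *
        ((Real.sqrt (Real.pi * Y / 2) + ε / 4) / (2 * Real.pi - ang q) - 1 / (4 * Real.pi)))
        atTop (𝓝 (2 / Y *
        ((Real.sqrt (Real.pi * Y / 2) + ε / 4) / (2 * Real.pi - 0) - 1 / (4 * Real.pi)))) := by
      refine Tendsto.const_mul _ (Tendsto.sub ?_ tendsto_const_nhds)
      refine Tendsto.div tendsto_const_nhds (tendsto_const_nhds.sub ang_tendsto) ?_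
      rw [sub_zero]
      positivity
    rw [sub_zero] at h2
    filter_upwards [h2.eventually (ge_mem_nhds (lt_of_le_of_lt h1
      (by linarith : 1 / 4 + ε / 4 / 2 < 1 / 4 + ε / 4)))] with q hq
    exact hq

lemma choiceC {p δ : ℝ} (C : ℝ) (hp : 1 < p) (hδ : 0 < δ) :
    ∀ᶠ q : ℕ in atTop, C * (q : ℝ) ^ (-p) ≤ 1 / 2 ∧ C * (q : ℝ) ^ (-p) * q ≤ δ := by
  have hc : Tendsto (fun q : ℕ => (q : ℝ)) atTop atTop := tendsto_natCast_atTop_atTop
  have h1 : Tendsto (fun q : ℕ => C * (q : ℝ) ^ (-p)) atTop (𝓝 (C * 0)) :=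
    ((tendsto_rpow_neg_atTop (by linarith : 0 < p)).comp hc).const_mul C
  have h2 : Tendsto (fun q : ℕ => C * (q : ℝ) ^ (-(p - 1))) atTop (𝓝 (C * 0)) :=
    ((tendsto_rpow_neg_atTop (by linarith : 0 < p - 1)).comp hc).const_mul C
  rw [mul_zero] at h1 h2
  filter_upwards [h1.eventually (ge_mem_nhds (by norm_num : (0 : ℝ) < 1 / 2)),
    h2.eventually (ge_mem_nhds hδ), eventually_ge_atTop 1] with q e1 e2 e3
  refine ⟨e1, ?_⟩
  have hq : (0 : ℝ) < q := by exact_mod_cast e3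
  have e : (q : ℝ) ^ (-(p - 1)) = (q : ℝ) ^ (-p) * q := by
    rw [neg_sub, sub_eq_neg_add, Real.rpow_add hq, Real.rpow_one]
  rw [e] at e2
  rw [mul_assoc]
  exact e2

lemma exp_le_one_sub {t : ℝ} (h0 : 0 ≤ t) (h : t ≤ 1 / 2) : Real.exp (-(2 * t)) ≤ 1 - t := by
  have h1 : 0 < 1 - t := by linarith
  rw [Real.exp_neg, inv_le_comm₀ (Real.exp_pos _) h1]
  have h2 := Real.add_one_le_exp (2 * t)
  refine le_trans ?_ h2
  rw [inv_le_comm₀ h1 (by positivity), ← one_div, div_le_iff₀ (by positivity)]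
  nlinarith

end Vale.Agent.P159.T1.D.H172
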