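import Vale.Agent.P159.T1.D.H172.Prod
import Vale.Agent.P159.T1.D.H172.Num
import Vale.Agent.P159.T1.F.Top

/-!
**D.AXIS from the rows of the direct route**: the lower bound `r ^ (-(1/4 + ε))` on the axis.
-/

open Filter Topology

namespace Vale.Agent.P159.T1.D.H172

open Vale.Agent.P159 Vale.Agent.P159.H353 Vale.Agent.P159.T1.D

lemma helicity_ge {b : ℝ} (hb : bCrit ≤ b) : 2 / Real.pi ≤ helicity b :=
  UJ.helicity_massless (H170.bCrit_pos.trans_le hb)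
    ((H170.mass_iff (H170.bCrit_pos.trans_le hb)).2 hb)

lemma Zs_nonneg {b : ℝ} (hb : 0 ≤ b) (U : Finset Z2) (k : ℤ) (ρ : Z2 → ℝ) : 0 ≤ Zs b U k ρ :=
  tsum_nonneg fun _ => mul_nonneg (Finset.prod_nonneg fun _ _ => wI_nonneg hb _)
    (Real.exp_pos _).le

/-- the quotient of the bounds -/
lemma quotient {z zr z0 z1 corr L U W W' P P' : ℝ} (hz : 0 < z) (hcorr : 0 ≤ corr)
    (h0 : z0 ≤ corr * z) (h1 : z1 ≤ Real.exp U * z) (h2 : Real.exp L * z ≤ zr)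
    (hz1 : 0 ≤ z1) (hW : 0 ≤ W) (hWW : W ≤ W') (hP : 0 ≤ P) (hPP : P ≤ P')
    (hmain : z * zr * W' * P' ≤ z0 * z1) : W * P * Real.exp (L - U) ≤ corr := by
  have h3 : W * P ≤ W' * P' := mul_le_mul hWW hPP hP (hW.trans hWW)
  have h4 : Real.exp L * z * z * (W * P) ≤ corr * (Real.exp U * z) * z := by
    calc Real.exp L * z * z * (W * P) ≤ zr * z * (W' * P') := by
          apply mul_le_mul _ h3 (mul_nonneg hW hP)
          · exact mul_nonneg ((mul_pos (Real.exp_pos L) hz).le.trans h2) hz.le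
          · exact mul_le_mul_of_nonneg_right h2 hz.le
      _ = z * zr * W' * P' := by ring
      _ ≤ z0 * z1 := hmain
      _ ≤ corr * z * z1 := mul_le_mul_of_nonneg_right h0 hz1
      _ ≤ corr * z * (Real.exp U * z) :=
          mul_le_mul_of_nonneg_left h1 (mul_nonneg hcorr hz.le)
      _ = corr * (Real.exp U * z) * z := by ring
  have h5 : W * P * Real.exp L ≤ corr * Real.exp U := by
    have h6 : 0 < z * z := mul_pos hz hz
    refine le_of_mul_le_mul_right ?_ h6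
    calc W * P * Real.exp L * (z * z) = Real.exp L * z * z * (W * P) := by ring
      _ ≤ corr * (Real.exp U * z) * z := h4
      _ = corr * Real.exp U * (z * z) := by ring
  rw [Real.exp_sub, ← mul_div_assoc, div_le_iff₀ (Real.exp_pos U)]
  exact h5

/-- the exponent -/
lemma exponent {ε lr Y En X t CU CL θ P : ℝ} {q K : ℕ} (hlr : 0 ≤ lr)
    (hX : 2 / Y * X ≤ 1 / 4 + ε / 4) (hε : 0 < ε) (ht0 : 0 ≤ t) (ht : t ≤ 1 / 2)
    (htq : t * q ≤ ε / 96) (hK : (K : ℝ) ≤ 3 * q * lr) (hθ : θ ≤ 1) (hP : 0 ≤ P) :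
    (1 - θ) ^ 3 * P * Real.exp (-CL - CU) * Real.exp (-(1 / 4 + ε) * lr) ≤
      ((1 - θ) ^ 3 * (Real.exp (-(2 * t))) ^ (2 * K)) * P *
        Real.exp ((2 * lr / Y * En - ε / 8 * lr - CL) -
          (2 * lr / Y * (En + X) + ε / 8 * lr + CU)) := by
  have h1 : (1 - θ) ^ 3 * P * Real.exp (-CL - CU) * Real.exp (-(1 / 4 + ε) * lr) =
      ((1 - θ) ^ 3 * P) * Real.exp (-CL - CU + -(1 / 4 + ε) * lr) := by
    rw [Real.exp_add]
    ring
  have h2 : ((1 - θ) ^ 3 * (Real.exp (-(2 * t))) ^ (2 * K)) * P *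
        Real.exp ((2 * lr / Y * En - ε / 8 * lr - CL) -
          (2 * lr / Y * (En + X) + ε / 8 * lr + CU)) =
      ((1 - θ) ^ 3 * P) * Real.exp (((2 * K : ℕ) : ℝ) * (-(2 * t)) +
        ((2 * lr / Y * En - ε / 8 * lr - CL) -
          (2 * lr / Y * (En + X) + ε / 8 * lr + CU))) := by
    rw [Real.exp_add, ← Real.exp_nat_mul]
    ring
  rw [h1, h2]
  refine mul_le_mul_of_nonneg_left ?_ (mul_nonneg (pow_nonneg (sub_nonneg.2 hθ) 3) hP)
  apply Real.exp_le_exp.2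
  have h3 : (K : ℝ) * t ≤ 3 * (t * q) * lr := by
    calc (K : ℝ) * t ≤ 3 * q * lr * t := mul_le_mul_of_nonneg_right hK ht0
      _ = 3 * (t * q) * lr := by ring
  have h4 : 3 * (t * q) * lr ≤ 3 * (ε / 96) * lr :=
    mul_le_mul_of_nonneg_right (by linarith) hlr
  have h5 : 2 * lr / Y * X = (2 / Y * X) * lr := by ring
  have h6 : (2 / Y * X) * lr ≤ (1 / 4 + ε / 4) * lr := mul_le_mul_of_nonneg_right hX hlr
  have h7 : 2 * lr / Y * (En + X) = 2 * lr / Y * En + 2 * lr / Y * X := by ring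
  have h8 : 0 ≤ ε * lr := mul_nonneg hε.le hlr
  rw [h7, h5]
  push_cast
  nlinarith

/-- the bound at one distance `r` -/
theorem at_r (hTop : StmtTop) (hMain : StmtMain) (hCover : StmtCover) (hSep : StmtSep)
    (hSepM : StmtSepM) (hPos : StmtPos) {b ε V c s t θ p CU CL : ℝ} {q n0 A r : ℕ}
    (hb : 0 < b) (hε : 0 < ε) (hY : 0 < helicity b) (hV : 0 < V) (hq : 1 ≤ q)
    (hqX : 2 / helicity b * (V / (2 * Real.pi - ang q) - 1 / (4 * Real.pi)) ≤ 1 / 4 + ε / 4)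
    (hc : 0 < c) (hc12 : c ≤ 1 / 12) (ht0 : 0 ≤ t) (ht : t ≤ 1 / 2) (htq : t * q ≤ ε / 96)
    (hs0 : 0 < s) (hsc : s ≤ c / 32) (hqs : q * s = c / 32) (hθ : θ < 1) (hp0 : 0 < p)
    (hp1 : p ≤ 1)
    (hp : ∀ (U : Finset Z2) (f : Z2), f ∈ U → p ≤ E b U fun h => if 1 ≤ h f then 1 else 0)
    (hqn : q < 3 * n0) (hA : 1 ≤ A) (hr : 1 ≤ r) (hnr : 2 * (3 * n0) ≤ r)
    (hnc : ((3 * n0 : ℕ) : ℝ) ≤ c * r) (hsr : 1 ≤ s * r)
    (hU : Zs b (SB (A * r) r) 1 (rho (helicity b) V q n0 r 1 (c / 4) (2 * s) s) ≤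
        Real.exp (2 * Real.log r / helicity b *
          (En V q + V / (2 * Real.pi - ang q) - 1 / (4 * Real.pi)) + ε / 8 * Real.log r + CU) *
          Z b (SB (A * r) r))
    (hL : Real.exp (2 * Real.log r / helicity b * En V q - ε / 8 * Real.log r - CL) *
        Z b (SB (A * r) r) ≤
        Zρ b (SB (A * r) r) (rho (helicity b) V q n0 r 1 (c / 4) (2 * s) s))
    (hArm : ∀ a : ℕ, 3 * n0 ≤ a → (a : ℝ) ≤ c * r →
      ∃ ρA ρB : Z2 → ℝ, (∀ f, 0 ≤ ρA f ∧ 0 ≤ ρB f ∧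
          ρA f + ρB f ≤ ro (helicity b) V q (clp n0 ((r : ℝ) / 4)) f) ∧
        (∀ f, f ∉ strip q 1 a → ρA f = 0) ∧
        (∀ f, f ∉ strip q (a + a / q) (2 * a) → ρB f = 0) ∧
        ∀ Q : Finset Z2, (∀ f, f ∈ Q ↔ f ∈ strip q a (a + a / q)) →
        Zρ b (SB (A * r) r \ Q) (fun f => ρA f - ρB f) ≤
          t * Zρ b (SB (A * r) r \ Q) (fun f => ρA f + ρB f))
    (hMid : ∀ Q : Finset Z2, (∀ f ∈ Q, c / 2 * (r : ℝ) ≤ -(f.1 : ℝ)) →
      Zρ b (SB (A * r) r \ Q)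
          (fun f => bump r 1 (c / 4) (2 * s) s f - bump r 1 (c / 4) (2 * s) s (mir r f)) ≤
        θ * Zρ b (SB (A * r) r \ Q)
          (fun f => bump r 1 (c / 4) (2 * s) s f + bump r 1 (c / 4) (2 * s) s (mir r f))) :
    (1 - θ) ^ 3 * p ^ (2 * (2 * (3 * n0)) ^ 2) * Real.exp (-CL - CU) *
      (r : ℝ) ^ (-(1 / 4 + ε)) ≤ corrInf b ((r : ℤ), 0) := by
  have hrR : (0 : ℝ) < r := by exact_mod_cast hr
  have hrR1 : (1 : ℝ) ≤ r := by exact_mod_cast hr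
  have hqR1 : (1 : ℝ) ≤ q := by exact_mod_cast hq
  have hAr : r ≤ A * r := Nat.le_mul_of_pos_left r hA
  have hlog : 0 ≤ Real.log r := Real.log_nonneg hrR1
  have hcr : c * r ≤ r := mul_le_of_le_one_left hrR.le (by linarith)
  have hcr2 : 2 * (c * r) ≤ r := by nlinarith
  have hsr2 : s * r ≤ c / 32 * r := mul_le_mul_of_nonneg_right hsc hrR.le
  have hcr0 : 0 < c * r := mul_pos hc hrR
  -- the cells
  obtain ⟨K, hK1, hK2⟩ := exists_last hq hqn.le hnc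
  have hK3 := hK1 K (le_refl K)
  have hMR : 2 * cell q (3 * n0) K ≤ A * r := by
    have h1 : (2 * cell q (3 * n0) K : ℝ) ≤ r := by linarith
    have h2 : 2 * cell q (3 * n0) K ≤ r := by exact_mod_cast h1
    exact h2.trans hAr
  have hcount : (K : ℝ) ≤ 3 * q * Real.log r := by
    have h1 := cell_count hq hqn.le (hK3.trans hcr)
    have h2 : (2 * (q : ℝ) + 1) * Real.log r ≤ 3 * q * Real.log r :=
      mul_le_mul_of_nonneg_right (by linarith) hlog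
    exact h1.trans h2
  have hbump : ∀ f, f ∉ strip q 1 (cell q (3 * n0) K) →
      bump r 1 (c / 4) (2 * s) s f = 0 := by
    intro f hf
    refine bump_support hr hs0 ?_ (by linarith) ?_ ?_ hf
    · calc (q : ℝ) * (2 * s + s) = 3 * (q * s) := by ring
        _ < c / 4 - s := by
          rw [hqs]
          linarith
    · linarith
    · calc (c / 4 + s) * (r : ℝ) = c * r / 4 + s * r := by ring
        _ ≤ cell q (3 * n0) K := by linarith
  have hmain := all_rows hMain hCover hSep hSepM hPos (x' := c / 2) (θ := θ) hb hY hV hq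
    zero_le_one (by omega) hr hqn hMR hnr (by linarith) hθ.le
    (fun f hf => hp0.le.trans (hp _ _ (mem_tips.1 hf).1))
    (fun k hk => hArm (cell q (3 * n0) k) (cell_ge q _ k) (hK1 k hk.le)) hbump
    (by linarith) hMid
  have hθ3 : 0 ≤ (1 - θ) ^ 3 := pow_nonneg (by linarith) 3
  have hWW : (1 - θ) ^ 3 * (Real.exp (-(2 * t))) ^ (2 * K) ≤
      (1 - θ) ^ 3 * (1 - t) ^ (2 * K) :=
    mul_le_mul_of_nonneg_left
      (pow_le_pow_left₀ (Real.exp_pos _).le (exp_le_one_sub ht0 ht) _) hθ3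
  have hW0 : 0 ≤ (1 - θ) ^ 3 * (Real.exp (-(2 * t))) ^ (2 * K) :=
    mul_nonneg hθ3 (pow_nonneg (Real.exp_pos _).le _)
  have hP0 : 0 ≤ p ^ (2 * (2 * (3 * n0)) ^ 2) := pow_nonneg hp0.le _
  have hPP := prod_tips (b := b) (R := A * r) (r := r) (n := 3 * n0) hp0 hp1 hp
  have hquo := quotient (H910.Z_pos hb.le (SB (A * r) r)) (F.corrInf_pos hb _).le
    (hTop b (A * r) r hb (by omega) hr) hU hL (Zs_nonneg hb.le _ _ _) hW0 hWW hP0 hPP hmain
  refine le_trans ?_ hquo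
  have hfin := exponent (Y := helicity b) (En := En V q)
    (X := V / (2 * Real.pi - ang q) - 1 / (4 * Real.pi)) (CU := CU) (CL := CL)
    hlog hqX hε ht0 ht htq hcount hθ.le hP0
  have e6 : (r : ℝ) ^ (-(1 / 4 + ε)) = Real.exp (-(1 / 4 + ε) * Real.log r) := by
    rw [Real.rpow_def_of_pos hrR, mul_comm]
  rw [e6]
  rw [← add_sub_assoc] at hfin
  exact hfin

/-- **the lower bound on the axis at large distances** -/
theorem axisB (hTop : StmtTop) (hMain : StmtMain) (hCover : StmtCover) (hSep : StmtSep)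
    (hSepM : StmtSepM) (hTip : StmtTip) (hPos : StmtPos) (hUp : StmtUp) (hLow : StmtLow)
    (hArm : StmtArm) (hMid : StmtMid) {b : ℝ} (hb : bCrit ≤ b) : F.AxisB b (1 / 4) := by
  intro ε hε
  have hb0 : 0 < b := H170.bCrit_pos.trans_le hb
  have hpi := Real.pi_pos
  have hY2 := helicity_ge hb
  have hY : 0 < helicity b := lt_of_lt_of_le (by positivity) hY2
  obtain ⟨V, hV, hp, hq1⟩ := choice hY2 hε
  obtain ⟨C, q0, hArm1⟩ := hArm b V hb hV
  obtain ⟨q, hqX, ⟨hq2, hq3⟩, hq4⟩ := (hq1.and ((choiceC (max C 0) hp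
    (by positivity : (0 : ℝ) < ε / 96)).and (eventually_ge_atTop (max q0 1)))).exists
  have hq0 : q0 ≤ q := (le_max_left _ _).trans hq4
  have hq : 1 ≤ q := (le_max_right _ _).trans hq4
  have hqR : (0 : ℝ) < q := by exact_mod_cast hq
  have hqR1 : (1 : ℝ) ≤ q := by exact_mod_cast hq
  clear hq1 hq4
  obtain ⟨n1, A1, c, hc, hc12, hArm2⟩ := hArm1 q hq0
  have hqp : 0 < (q : ℝ) ^ (-(2 * V ^ 2 / (Real.pi * helicity b))) := Real.rpow_pos_of_pos hqR _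
  have ht0 : 0 ≤ max C 0 * (q : ℝ) ^ (-(2 * V ^ 2 / (Real.pi * helicity b))) :=
    mul_nonneg (le_max_right _ _) hqp.le
  -- the bumps
  obtain ⟨s, hs0, hqs⟩ : ∃ s : ℝ, 0 < s ∧ q * s = c / 32 :=
    ⟨c / (32 * q), by positivity, by field_simp⟩
  have hsc : s ≤ c / 32 := by
    rw [← hqs]
    exact le_mul_of_one_le_left hs0.le hqR1
  have e1 : s < 2 * s := by linarith
  have e2 : s + c / 4 < 1 / 4 := by linarith
  have e3 : (q : ℝ) * (2 * s + s) < c / 4 - s := by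
    calc (q : ℝ) * (2 * s + s) = 3 * (q * s) := by ring
      _ < c / 4 - s := by
        rw [hqs]
        linarith
  have e4 : s < c / 4 := by linarith
  have e5 : c / 4 + s < c / 2 := by linarith
  obtain ⟨nU, hU1⟩ := hUp b V q 1 (c / 4) (2 * s) s (ε / 8) hb hV hq (by positivity) one_pos hs0
    e1 e2 e3
  obtain ⟨nL, hL1⟩ := hLow b V q 1 (c / 4) (2 * s) s (ε / 8) hb hV hq (by positivity) one_pos hs0
    e1 e2 e3
  obtain ⟨θ, nM, A2, hθ, hM1⟩ := hMid b 1 (c / 4) (2 * s) s (c / 2) hb one_pos hs0 e1 e4 e5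
  obtain ⟨p, hp0, hp1⟩ := hTip b hb0
  -- the radius of the tips
  obtain ⟨n0, g1, g2, g3, g4⟩ : ∃ n0 : ℕ, n1 ≤ n0 ∧ nU ≤ n0 ∧ nL ≤ n0 ∧ q + 1 ≤ n0 :=
    ⟨n1 + nU + nL + (q + 1), by omega, by omega, by omega, by omega⟩
  obtain ⟨CU, hU⟩ := hU1 n0 g2
  obtain ⟨CL, hL⟩ := hL1 n0 g3
  clear hU1 hL1 hUp hLow
  obtain ⟨A, hA1, hA2, hA3⟩ : ∃ A : ℕ, A1 ≤ A ∧ A2 ≤ A ∧ 1 ≤ A :=
    ⟨A1 + A2 + 1, by omega, by omega, by omega⟩
  obtain ⟨r1, hr1⟩ := exists_nat_gt (((3 * n0 : ℕ) : ℝ) / c)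
  obtain ⟨r2, hr2⟩ := exists_nat_gt (1 / s)
  have hp'0 : 0 < min p 1 := lt_min hp0 one_pos
  have hθ3 : 0 < (1 - θ) ^ 3 := pow_pos (by linarith) 3
  refine ⟨(1 - θ) ^ 3 * (min p 1) ^ (2 * (2 * (3 * n0)) ^ 2) * Real.exp (-CL - CU),
    mul_pos (mul_pos hθ3 (pow_pos hp'0 _)) (Real.exp_pos _),
    nU + nL + nM + 2 * (3 * n0) + r1 + r2, fun r hr => ?_⟩
  have hr0 : 1 ≤ r := by omega
  refine at_r hTop hMain hCover hSep hSepM hPos hb0 hε hY hV hq hqX hc hc12 ht0 hq2 hq3 hs0 hsc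
    hqs hθ hp'0 (min_le_right _ _) (fun U f hf => (min_le_left _ _).trans (hp1 U f hf))
    (by omega) hA3 hr0 (by omega) ?_ ?_ (hU A r hA3 (by omega)) (hL A r hA3 (by omega)) ?_
    (hM1 A r hA2 (by omega))
  · have h2 : r1 ≤ r := by omega
    have h1 : ((3 * n0 : ℕ) : ℝ) / c < r := hr1.trans_le (by exact_mod_cast h2)
    rw [div_lt_iff₀ hc] at h1
    linarith
  · have h2 : r2 ≤ r := by omega
    have h1 : 1 / s < r := hr2.trans_le (by exact_mod_cast h2)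
    rw [div_lt_iff₀ hs0] at h1
    linarith
  · intro a ha1 ha2
    obtain ⟨ρA, ρB, h2, h3, h4, h5⟩ := hArm2 n0 g1 A r a hA1 ha1 ha2
    refine ⟨ρA, ρB, h2, h3, h4, fun Q hQ => (h5 Q hQ).trans ?_⟩
    refine mul_le_mul_of_nonneg_right ?_ (H910.Zρ_pos hb0.le _ _).le
    exact mul_le_mul_of_nonneg_right (le_max_left _ _) hqp.le

/-- **D.AXIS from the rows** -/
theorem axis (hTop : StmtTop) (hMain : StmtMain) (hCover : StmtCover) (hSep : StmtSep)
    (hSepM : StmtSepM) (hTip : StmtTip) (hPos : StmtPos) (hUp : StmtUp) (hLow : StmtLow)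
    (hArm : StmtArm) (hMid : StmtMid) : StmtAxis := by
  intro b ε hb hε
  obtain ⟨c, hc, h⟩ := F.axis_all (H170.bCrit_pos.trans_le hb)
    (axisB hTop hMain hCover hSep hSepM hTip hPos hUp hLow hArm hMid hb) hε
  exact ⟨c, hc, fun r _ => h r⟩

end Vale.Agent.P159.T1.D.H172
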