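import Vale.Agent.P159.T1.D.H172.Num

/-!
The choice of the constants for the iteration of the four replica inequality.
-/

open Filter Topology

namespace Vale.Agent.P159.T1.D.H172

open Vale.Agent.P159.T1.D

/-- the iteration -/
lemma replica_iter {f g : ℕ → ℝ} {α A e δ : ℝ} {k : ℕ}
    (h0 : g 0 - α - δ ≤ f 0) (hs : ∀ j < k, 2 * f j + 2 * g j - α ≤ f (j + 1))
    (hg0 : A - e ≤ g 0) (hg : ∀ j < k, (4 : ℝ) ^ j * A - e ≤ g j) :
    ∀ j ≤ k, (4 : ℝ) ^ j * A - ((2 : ℝ) ^ (j + 1) - 1) * α - (2 ^ j * (3 * e + δ) - 2 * e) ≤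
      f j := by
  intro j
  induction j with
  | zero =>
    intro _
    rw [pow_zero, pow_zero, zero_add, pow_one]
    linarith
  | succ j ih =>
    intro hj
    have h1 := ih (by omega)
    have h2 := hs j (by omega)
    have h3 := hg j (by omega)
    have e4 : (4 : ℝ) ^ (j + 1) = 4 * 4 ^ j := by ring
    have e5 : (2 : ℝ) ^ (j + 1 + 1) = 4 * 2 ^ j := by ring
    have e6 : (2 : ℝ) ^ (j + 1) = 2 * 2 ^ j := by ring
    rw [e6] at h1
    rw [e5, e4, e6]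
    nlinarith

/-- the result of the iteration -/
lemma replica_final {f g : ℕ → ℝ} {α A e δ u : ℝ} {k : ℕ}
    (h0 : g 0 - α - δ ≤ f 0) (hs : ∀ j < k, 2 * f j + 2 * g j - α ≤ f (j + 1))
    (hg0 : A - e ≤ g 0) (hg : ∀ j < k, (4 : ℝ) ^ j * A - e ≤ g j)
    (hu : f k ≤ (4 : ℝ) ^ k * A + u) (he : 0 ≤ e) (hδ : 0 ≤ δ) :
    -(u / (2 ^ (k + 1) - 1)) - (3 * e + δ) ≤ α := by
  have h1 := replica_iter h0 hs hg0 hg k (le_refl k)
  have h2 : (1 : ℝ) ≤ 2 ^ k := one_le_pow₀ (by norm_num)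
  have e6 : (2 : ℝ) ^ (k + 1) = 2 * 2 ^ k := by ring
  have hD : (0 : ℝ) < 2 ^ (k + 1) - 1 := by
    rw [e6]
    linarith
  have h3 : (2 : ℝ) ^ k * (3 * e + δ) ≤ (2 ^ (k + 1) - 1) * (3 * e + δ) := by
    refine mul_le_mul_of_nonneg_right ?_ (by linarith)
    rw [e6]
    linarith
  have h4 : -(((2 : ℝ) ^ (k + 1) - 1) * α) ≤ u + (2 ^ (k + 1) - 1) * (3 * e + δ) := by linarith
  have h5 : -α ≤ u / (2 ^ (k + 1) - 1) + (3 * e + δ) := by
    have h6 : -α = -(((2 : ℝ) ^ (k + 1) - 1) * α) / (2 ^ (k + 1) - 1) := by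
      field_simp
    rw [h6, div_add' _ _ _ hD.ne', div_le_div_iff_of_pos_right hD]
    linarith
  linarith

/-- the exponent `1 / √(8 π Y)` -/
noncomputable def kap0 (Y : ℝ) : ℝ := 1 / Real.sqrt (8 * Real.pi * Y)

lemma kap0_eq {Y : ℝ} (hY : 0 < Y) :
    kap0 Y = Real.sqrt (Real.pi * Y / 2) / (2 * Real.pi * Y) := by
  have hpi := Real.pi_pos
  have h0 : 0 < Real.sqrt (Real.pi * Y / 2) := Real.sqrt_pos.2 (by positivity)
  have h1 : Real.sqrt (Real.pi * Y / 2) ^ 2 = Real.pi * Y / 2 := Real.sq_sqrt (by positivity)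
  have h2 : Real.sqrt (8 * Real.pi * Y) = 4 * Real.sqrt (Real.pi * Y / 2) := by
    rw [show 8 * Real.pi * Y = 4 ^ 2 * (Real.pi * Y / 2) by ring,
      Real.sqrt_mul (by positivity), Real.sqrt_sq (by norm_num)]
  unfold kap0
  rw [h2, div_eq_div_iff (by positivity) (by positivity)]
  nlinarith

lemma kap0_le {Y : ℝ} (hY : 2 / Real.pi ≤ Y) : kap0 Y ≤ 1 / 4 := by
  have hpi := Real.pi_pos
  have hY0 : 0 < Y := lt_of_lt_of_le (by positivity) hY
  rw [div_le_iff₀ hpi] at hY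
  unfold kap0
  have h1 : (4 : ℝ) ≤ Real.sqrt (8 * Real.pi * Y) := by
    apply Real.le_sqrt_of_sq_le
    nlinarith
  exact one_div_le_one_div_of_le (by norm_num) h1

lemma kap0_pos {Y : ℝ} (hY : 0 < Y) : 0 < kap0 Y := by
  have hpi := Real.pi_pos
  unfold kap0
  positivity

/-- choice of the slope and of the aperture -/
lemma choice1 {Y ε : ℝ} (hY : 0 < Y) (hε : 0 < ε) :
    ∃ V : ℝ, 0 < V ∧ 1 < 2 * V ^ 2 / (Real.pi * Y) ∧
      ∀ᶠ q : ℕ in atTop, V / (Y * (2 * Real.pi - ang q)) ≤ kap0 Y + ε := by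
  have hpi := Real.pi_pos
  have hsq : 0 < Real.sqrt (Real.pi * Y / 2) := Real.sqrt_pos.2 (by positivity)
  have hs2 : Real.sqrt (Real.pi * Y / 2) ^ 2 = Real.pi * Y / 2 := Real.sq_sqrt (by positivity)
  have hδ : 0 < Real.pi * Y * ε := by positivity
  refine ⟨Real.sqrt (Real.pi * Y / 2) + Real.pi * Y * ε, by positivity, ?_, ?_⟩
  · rw [lt_div_iff₀ (by positivity)]
    nlinarith [mul_pos hsq hδ, sq_nonneg (Real.pi * Y * ε)]
  · have h1 : (Real.sqrt (Real.pi * Y / 2) + Real.pi * Y * ε) / (Y * (2 * Real.pi - 0)) <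
        kap0 Y + ε := by
      rw [kap0_eq hY, sub_zero, div_lt_iff₀ (by positivity)]
      have : (Real.sqrt (Real.pi * Y / 2) / (2 * Real.pi * Y) + ε) * (Y * (2 * Real.pi)) =
          Real.sqrt (Real.pi * Y / 2) + 2 * (Real.pi * Y * ε) := by
        field_simp
      rw [this]
      linarith
    have h2 : Tendsto (fun q : ℕ =>
        (Real.sqrt (Real.pi * Y / 2) + Real.pi * Y * ε) / (Y * (2 * Real.pi - ang q)))
        atTop (𝓝 ((Real.sqrt (Real.pi * Y / 2) + Real.pi * Y * ε) /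
          (Y * (2 * Real.pi - 0)))) := by
      refine Tendsto.div tendsto_const_nhds
        ((tendsto_const_nhds.sub ang_tendsto).const_mul Y) ?_
      rw [sub_zero]
      positivity
    filter_upwards [h2.eventually (ge_mem_nhds h1)] with q hq
    exact hq

/-- choice of the number of replicas -/
lemma choice2 {Y V W B ε : ℝ} (hY : 0 < Y) (hW : 0 < W) (hV : 0 < V) (hB : 0 ≤ B) (hε : 0 < ε) :
    ∃ k : ℕ, 1 ≤ k ∧
      2 / Y * (2 ^ k * V / W - B) / (2 ^ (k + 1) - 1) ≤ V / (Y * W) + ε := by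
  obtain ⟨k, hk⟩ := exists_nat_gt (V / (Y * W) / ε)
  refine ⟨k + 1, by omega, ?_⟩
  have h2 : (k + 1 : ℝ) ≤ 2 ^ (k + 1) := by
    have := Nat.lt_two_pow_self (n := k + 1)
    exact_mod_cast this.le
  have hX : 0 < V / (Y * W) := by positivity
  rw [div_lt_iff₀ hε] at hk
  have e6 : (2 : ℝ) ^ (k + 1 + 1) = 2 * 2 ^ (k + 1) := by ring
  have h3 : (1 : ℝ) ≤ 2 ^ (k + 1) := one_le_pow₀ (by norm_num)
  have hD : (0 : ℝ) < 2 ^ (k + 1 + 1) - 1 := by
    rw [e6]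
    linarith
  rw [div_le_iff₀ hD, e6]
  have e7 : 2 / Y * (2 ^ (k + 1) * V / W - B) = 2 * 2 ^ (k + 1) * (V / (Y * W)) - 2 / Y * B := by
    field_simp
  have h8 : 0 ≤ 2 / Y * B := by positivity
  rw [e7]
  nlinarith [mul_le_mul_of_nonneg_right h2 hε.le]

end Vale.Agent.P159.T1.D.H172
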