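import Vale.Agent.P159.T1.D.H172.Good
import Vale.Agent.P159.T1.D.H172.R1Num
import Vale.Agent.P159.T1.F.Top

/-!
**The exponent `1 / √(8 π Y)`** on the axis from the product bound, the two energy bounds and the
four replica inequality.
-/

open Filter Topology

namespace Vale.Agent.P159.T1.D.H172

open Vale.Agent.P159 Vale.Agent.P159.H353 Vale.Agent.P159.T1.D

/-- the four replica inequality in the slit box -/
def StmtFour : Prop :=
  ∀ (b : ℝ) (R r : ℕ) (ρ σ : Z2 → ℝ), 0 < b → 2 ≤ R → 1 ≤ r →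
    (Zs b (SB R r) 1 ρ * Zρ b (SB R r) σ) ^ 2 ≤
      Zs b (SB R r) 1 (ρ + σ) * Zs b (SB R r) 1 (ρ - σ) * Z b (SB R r) ^ 2

lemma Zs_nonneg' {b : ℝ} (hb : 0 ≤ b) (U : Finset Z2) (k : ℤ) (ρ : Z2 → ℝ) : 0 ≤ Zs b U k ρ :=
  tsum_nonneg fun _ => mul_nonneg (Finset.prod_nonneg fun _ _ => wI_nonneg hb _)
    (Real.exp_pos _).le

lemma cf_scale (Y V c : ℝ) (q : ℕ) (e : Bnd) : cf Y (c * V) q e = c * cf Y V q e := by
  unfold cf
  split_ifs <;> ring

lemma ro_scale (Y V c : ℝ) (q : ℕ) (Γ : ℝ → ℝ) (f : Z2) :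
    ro Y (c * V) q Γ f = c * ro Y V q Γ f := by
  unfold ro
  split_ifs
  · simp only [Bf, cf_scale]
    ring
  · ring

lemma bump_scale (r : ℕ) (κ c x y s : ℝ) (f : Z2) :
    bump r (c * κ) x y s f = c * bump r κ x y s f := by
  unfold bump
  ring

/-- the charges are homogeneous -/
lemma rho_scale (Y V c : ℝ) (q n0 r : ℕ) (κ x y s : ℝ) :
    rho Y (c * V) q n0 r (c * κ) x y s = fun f => c * rho Y V q n0 r κ x y s f := by
  funext f
  unfold rho
  rw [ro_scale, ro_scale, bump_scale, bump_scale]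
  ring

lemma En_scale (V c : ℝ) (q : ℕ) : En (c * V) q = c ^ 2 * En V q := by
  unfold En
  ring

section

variable {b : ℝ} {R r k : ℕ} {ρ : Z2 → ℝ}

/-- all sums in the sector `(1|0)` are positive -/
lemma Zs_pos_iter (hFour : StmtFour) (hb : 0 < b) (hR : 2 ≤ R) (hr : 1 ≤ r)
    (h0 : 0 < Zs b (SB R r) 1 ρ) (j : ℕ) :
    0 < Zs b (SB R r) 1 fun f => (2 : ℝ) ^ j * ρ f := by
  induction j with
  | zero =>
    have : (fun f => (2 : ℝ) ^ 0 * ρ f) = ρ := by
      funext f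
      rw [pow_zero, one_mul]
    rwa [this]
  | succ j ih =>
    have h1 := hFour b R r (fun f => (2 : ℝ) ^ j * ρ f) (fun f => (2 : ℝ) ^ j * ρ f) hb hR hr
    have e1 : ((fun f => (2 : ℝ) ^ j * ρ f) + fun f => (2 : ℝ) ^ j * ρ f) =
        fun f => (2 : ℝ) ^ (j + 1) * ρ f := by
      funext f
      change (2 : ℝ) ^ j * ρ f + (2 : ℝ) ^ j * ρ f = _
      ring
    rw [e1] at h1
    have h2 := H910.Zρ_pos hb.le (SB R r) fun f => (2 : ℝ) ^ j * ρ f
    have h3 : 0 < (Zs b (SB R r) 1 (fun f => (2 : ℝ) ^ j * ρ f) *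
        Zρ b (SB R r) fun f => (2 : ℝ) ^ j * ρ f) ^ 2 := by positivity
    have h4 := h3.trans_le h1
    by_contra h5
    have h6 := le_antisymm (not_lt.1 h5) (Zs_nonneg' hb.le (SB R r) 1 _)
    rw [h6, zero_mul, zero_mul] at h4
    exact lt_irrefl _ h4

/-- one step in logarithms -/
lemma four_log (hFour : StmtFour) (hb : 0 < b) (hR : 2 ≤ R) (hr : 1 ≤ r)
    (h0 : 0 < Zs b (SB R r) 1 ρ) (h00 : 0 < Zs b (SB R r) 1 0) (j : ℕ) :
    2 * (Real.log (Zs b (SB R r) 1 fun f => (2 : ℝ) ^ j * ρ f) - Real.log (Z b (SB R r))) +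
      2 * (Real.log (Zρ b (SB R r) fun f => (2 : ℝ) ^ j * ρ f) - Real.log (Z b (SB R r))) -
      (Real.log (Zs b (SB R r) 1 0) - Real.log (Z b (SB R r))) ≤
    Real.log (Zs b (SB R r) 1 fun f => (2 : ℝ) ^ (j + 1) * ρ f) - Real.log (Z b (SB R r)) := by
  have h1 := hFour b R r (fun f => (2 : ℝ) ^ j * ρ f) (fun f => (2 : ℝ) ^ j * ρ f) hb hR hr
  have e1 : ((fun f => (2 : ℝ) ^ j * ρ f) + fun f => (2 : ℝ) ^ j * ρ f) =
      fun f => (2 : ℝ) ^ (j + 1) * ρ f := by
    funext f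
    change (2 : ℝ) ^ j * ρ f + (2 : ℝ) ^ j * ρ f = _
    ring
  rw [e1, sub_self] at h1
  have hz := H910.Z_pos hb.le (SB R r)
  have h2 := H910.Zρ_pos hb.le (SB R r) fun f => (2 : ℝ) ^ j * ρ f
  have h3 := Zs_pos_iter hFour hb hR hr h0 j
  have h4 := Zs_pos_iter hFour hb hR hr h0 (j + 1)
  have h5 := Real.log_le_log (by positivity) h1
  rw [Real.log_pow, Real.log_mul h3.ne' h2.ne', Real.log_mul (by positivity) (by positivity),
    Real.log_mul h4.ne' h00.ne', Real.log_pow] at h5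
  push_cast at h5
  linarith

end

/-- **the exponent `1 / √(8 π Y)`** -/
theorem axisR1 (hGood : StmtGoodV) (hFour : StmtFour) (hTop : StmtTop) (hUp : StmtUp)
    (hLow : StmtLow) {b : ℝ} (hb : bCrit ≤ b) (hb0 : 0 < b) (hY : 0 < helicity b) :
    F.AxisB b (kap0 (helicity b)) := by
  intro ε hε
  have hpi := Real.pi_pos
  obtain ⟨V, hV, hp, hq1⟩ := choice1 hY (by positivity : (0 : ℝ) < ε / 4)
  obtain ⟨q0, hG⟩ := hGood b V 1 (ε / 16) hb hV hp one_pos (by positivity)
  obtain ⟨q, hqV, hq0⟩ := (hq1.and (eventually_ge_atTop q0)).exists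
  obtain ⟨x, y, s, n1, A0, hq, hs0, e1, e2, e3, hG⟩ := hG q hq0
  have hW : 0 < 2 * Real.pi - ang q := two_pi_sub_ang_pos q
  obtain ⟨k, -, hkk⟩ := choice2 (B := 1 / (4 * Real.pi)) hY hW hV (by positivity)
    (by positivity : (0 : ℝ) < ε / 4)
  obtain ⟨nU, hU⟩ := hUp b (2 ^ k * V) q (2 ^ k * 1) x y s (ε / 16) hb (by positivity) hq
    (by positivity) (by positivity) hs0 e1 e2 e3
  have hL0 := fun j : ℕ => hLow b (2 ^ j * V) q (2 ^ j * 1) x y s (ε / 16) hb (by positivity) hq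
    (by positivity) (by positivity) hs0 e1 e2 e3
  choose nL hL using hL0
  -- the size of the tips
  obtain ⟨n0, g1, g2, g3⟩ : ∃ n0 : ℕ, n1 ≤ n0 ∧ nU ≤ n0 ∧ ∀ j ≤ k, nL j ≤ n0 :=
    ⟨n1 + nU + ∑ j ∈ Finset.range (k + 1), nL j, by omega, by omega, fun j hj =>
      (Finset.single_le_sum (f := nL) (fun _ _ => Nat.zero_le _)
        (Finset.mem_range.2 (by omega : j < k + 1))).trans (by omega)⟩
  obtain ⟨CU, hU⟩ := hU n0 g2
  have hL1 : ∀ j, ∃ C : ℝ, j ≤ k → ∀ (A r : ℕ), 1 ≤ A → nL j ≤ r →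
      Real.exp (2 * Real.log r / helicity b * En (2 ^ j * V) q - ε / 16 * Real.log r - C) *
        Z b (SB (A * r) r) ≤
        Zρ b (SB (A * r) r) (rho (helicity b) (2 ^ j * V) q n0 r (2 ^ j * 1) x y s) := by
    intro j
    by_cases hj : j ≤ k
    · obtain ⟨C, hC⟩ := hL j n0 (g3 j hj)
      exact ⟨C, fun _ => hC⟩
    · exact ⟨0, fun h => absurd h hj⟩
  choose CL hCL using hL1
  obtain ⟨c, r0, hc, hG⟩ := hG n0 g1
  set CM : ℝ := ∑ j ∈ Finset.range (k + 1), |CL j| with hCM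
  have hCM0 : 0 ≤ CM := Finset.sum_nonneg fun _ _ => abs_nonneg _
  have hCMj : ∀ j ≤ k, CL j ≤ CM := fun j hj => (le_abs_self _).trans
    (Finset.single_le_sum (f := fun j => |CL j|) (fun _ _ => abs_nonneg _)
      (Finset.mem_range.2 (by omega : j < k + 1)))
  refine ⟨Real.exp (-(|CU| + 3 * CM + |Real.log c|)), Real.exp_pos _,
    r0 + nU + (∑ j ∈ Finset.range (k + 1), nL j) + 2, fun r hr => ?_⟩
  have hr1 : 1 ≤ r := by omega
  have hrR : (0 : ℝ) < r := by exact_mod_cast hr1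
  have hrj : ∀ j ≤ k, nL j ≤ r := fun j hj =>
    (Finset.single_le_sum (f := nL) (fun _ _ => Nat.zero_le _)
      (Finset.mem_range.2 (by omega : j < k + 1))).trans (by omega)
  have hlog : 0 ≤ Real.log r := Real.log_nonneg (by exact_mod_cast hr1)
  set A : ℕ := A0 + 1 with hA
  have hA1 : 1 ≤ A := by omega
  have hAr : r ≤ A * r := Nat.le_mul_of_pos_left r hA1
  have hR2 : 2 ≤ A * r := by omega
  set ρ := rho (helicity b) V q n0 r 1 x y s with hρ
  have hρj : ∀ j : ℕ, rho (helicity b) (2 ^ j * V) q n0 r (2 ^ j * 1) x y s =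
      fun f => (2 : ℝ) ^ j * ρ f := fun j => rho_scale _ _ _ _ _ _ _ _ _ _
  have hz := H910.Z_pos hb0.le (SB (A * r) r)
  have hgood := hG A r (by omega) (by omega)
  have hzr := H910.Zρ_pos hb0.le (SB (A * r) r) ρ
  have hrε : (0 : ℝ) < (r : ℝ) ^ (-(ε / 16)) := Real.rpow_pos_of_pos hrR _
  have hpos : 0 < Zs b (SB (A * r) r) 1 0 * Zs b (SB (A * r) r) 1 ρ :=
    lt_of_lt_of_le (by positivity) hgood
  have hs00 := Zs_nonneg' hb0.le (SB (A * r) r) 1 0
  have hs0ρ := Zs_nonneg' hb0.le (SB (A * r) r) 1 ρ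
  have hp0 : 0 < Zs b (SB (A * r) r) 1 0 := pos_of_mul_pos_left hpos hs0ρ
  have hpρ : 0 < Zs b (SB (A * r) r) 1 ρ := pos_of_mul_pos_right hpos hs00
  -- the logarithms
  have hone : (fun f => (2 : ℝ) ^ 0 * ρ f) = ρ := by
    funext f
    rw [pow_zero, one_mul]
  set z := Z b (SB (A * r) r) with hzdef
  set α := Real.log (Zs b (SB (A * r) r) 1 0) - Real.log z with hα
  have hfin := replica_final
    (f := fun j => Real.log (Zs b (SB (A * r) r) 1 fun f => (2 : ℝ) ^ j * ρ f) - Real.log z)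
    (g := fun j => Real.log (Zρ b (SB (A * r) r) fun f => (2 : ℝ) ^ j * ρ f) - Real.log z)
    (α := α) (A := 2 * Real.log r / helicity b * En V q)
    (e := ε / 16 * Real.log r + CM) (δ := ε / 16 * Real.log r + |Real.log c|)
    (u := 2 * Real.log r / helicity b * (2 ^ k * V / (2 * Real.pi - ang q) -
      1 / (4 * Real.pi)) + ε / 16 * Real.log r + CU) (k := k) ?_ ?_ ?_ ?_ ?_ (by positivity)
    (by positivity)
  · -- conclusion
    have hD : (1 : ℝ) ≤ 2 ^ (k + 1) - 1 := by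
      have h2 : (2 : ℝ) ^ 1 ≤ 2 ^ (k + 1) :=
        pow_le_pow_right₀ (by norm_num) (by omega)
      linarith
    have hu : (2 * Real.log r / helicity b * (2 ^ k * V / (2 * Real.pi - ang q) -
        1 / (4 * Real.pi)) + ε / 16 * Real.log r + CU) / (2 ^ (k + 1) - 1) ≤
        (kap0 (helicity b) + ε / 2) * Real.log r + ε / 16 * Real.log r + |CU| := by
      have h3 : (2 * Real.log r / helicity b * (2 ^ k * V / (2 * Real.pi - ang q) -
          1 / (4 * Real.pi)) + ε / 16 * Real.log r + CU) / (2 ^ (k + 1) - 1) =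
          (2 / helicity b * (2 ^ k * V / (2 * Real.pi - ang q) - 1 / (4 * Real.pi)) /
            (2 ^ (k + 1) - 1)) * Real.log r +
          (ε / 16 * Real.log r + CU) / (2 ^ (k + 1) - 1) := by
        ring
      rw [h3]
      have h4 : (2 / helicity b * (2 ^ k * V / (2 * Real.pi - ang q) - 1 / (4 * Real.pi)) /
            (2 ^ (k + 1) - 1)) * Real.log r ≤ (kap0 (helicity b) + ε / 2) * Real.log r :=
        mul_le_mul_of_nonneg_right (by linarith) hlog
      have h5 : (ε / 16 * Real.log r + CU) / (2 ^ (k + 1) - 1) ≤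
          ε / 16 * Real.log r + |CU| := by
        have h6 : ε / 16 * Real.log r + CU ≤ ε / 16 * Real.log r + |CU| := by
          linarith [le_abs_self CU]
        have h7 : 0 ≤ ε / 16 * Real.log r + |CU| := by positivity
        rw [div_le_iff₀ (by linarith)]
        nlinarith
      linarith
    have hα2 : -((kap0 (helicity b) + ε) * Real.log r) -
        (|CU| + 3 * CM + |Real.log c|) ≤ α := by
      nlinarith
    have hexp : Real.exp α = Zs b (SB (A * r) r) 1 0 / z := by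
      rw [hα, Real.exp_sub, Real.exp_log hp0, Real.exp_log hz]
    have htop := hTop b (A * r) r hb0 hR2 hr1
    have h8 : Real.exp α ≤ corrInf b ((r : ℤ), 0) := by
      rw [hexp, div_le_iff₀ hz]
      exact htop
    refine le_trans ?_ h8
    rw [Real.rpow_def_of_pos hrR, ← Real.exp_add]
    apply Real.exp_le_exp.2
    linarith
  · -- the product bound
    simp only [hone]
    have h1 := Real.log_le_log (by positivity) hgood
    rw [Real.log_mul (by positivity) (by positivity), Real.log_mul hz.ne' hzr.ne',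
      Real.log_mul hc.ne' hrε.ne', Real.log_mul hp0.ne' hpρ.ne', Real.log_rpow hrR] at h1
    have h2 := neg_abs_le (Real.log c)
    rw [hα]
    linarith
  · intro j _
    exact four_log hFour hb0 hR2 hr1 hpρ hp0 j
  · simp only [hone]
    have h1 := hCL 0 (Nat.zero_le k) A r hA1 (hrj 0 (Nat.zero_le k))
    rw [hρj 0, hone, pow_zero, one_mul] at h1
    have h2 := Real.log_le_log (by positivity) h1
    rw [Real.log_mul (Real.exp_pos _).ne' hz.ne', Real.log_exp] at h2
    have h3 := hCMj 0 (Nat.zero_le k)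
    linarith
  · intro j hj
    have h1 := hCL j hj.le A r hA1 (hrj j hj.le)
    rw [hρj j, En_scale] at h1
    have h2 := Real.log_le_log (by positivity) h1
    rw [Real.log_mul (Real.exp_pos _).ne' hz.ne', Real.log_exp] at h2
    have h3 := hCMj j hj.le
    have e4 : ((2 : ℝ) ^ j) ^ 2 = 4 ^ j := by
      rw [← pow_mul, mul_comm, pow_mul]
      norm_num
    rw [e4] at h2
    linarith
  · have h1 := hU A r hA1 (by omega)
    rw [hρj k, En_scale] at h1
    have h2 := Real.log_le_log (Zs_pos_iter hFour hb0 hR2 hr1 hpρ k) h1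
    rw [Real.log_mul (Real.exp_pos _).ne' hz.ne', Real.log_exp] at h2
    have e4 : ((2 : ℝ) ^ k) ^ 2 = 4 ^ k := by
      rw [← pow_mul, mul_comm, pow_mul]
      norm_num
    rw [e4] at h2
    linarith

end Vale.Agent.P159.T1.D.H172
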