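import Mathlib.Analysis.SpecialFunctions.Log.Basic
import Mathlib.Tactic

/-!
The columns which bound the cells.
-/

namespace Vale.Agent.P159.T1.D.H172

/-- left ends of the normal cells -/
def cell (q n : ℕ) : ℕ → ℕ
  | 0 => n
  | k + 1 => cell q n k + cell q n k / q

lemma cell_zero (q n : ℕ) : cell q n 0 = n := rfl

lemma cell_succ (q n k : ℕ) : cell q n (k + 1) = cell q n k + cell q n k / q := rfl

lemma cell_ge (q n k : ℕ) : n ≤ cell q n k := by
  induction k with
  | zero => exact le_refl _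
  | succ k ih => exact ih.trans (Nat.le_add_right _ _)

lemma cell_lt {q n : ℕ} (hq : 1 ≤ q) (hn : q ≤ n) (k : ℕ) : cell q n k < cell q n (k + 1) := by
  have h1 := cell_ge q n k
  have h2 : 1 ≤ cell q n k / q := by
    rw [Nat.one_le_div_iff hq]
    omega
  rw [cell_succ]
  omega

lemma cell_strictMono {q n : ℕ} (hq : 1 ≤ q) (hn : q ≤ n) : StrictMono (cell q n) :=
  strictMono_nat_of_lt_succ (cell_lt hq hn)

lemma cell_le_two (q n k : ℕ) : cell q n (k + 1) ≤ 2 * cell q n k := by
  have := Nat.div_le_self (cell q n k) q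
  rw [cell_succ]
  omega

lemma cell_growth {q n : ℕ} (hq : 1 ≤ q) (hn : q ≤ n) (k : ℕ) :
    (1 + 1 / (2 * (q : ℝ))) * cell q n k ≤ cell q n (k + 1) := by
  have h1 := cell_ge q n k
  have hq0 : (0 : ℝ) < q := by exact_mod_cast hq
  have h2 : 1 ≤ cell q n k / q := by
    rw [Nat.one_le_div_iff hq]
    omega
  have h3 : cell q n k < q * (cell q n k / q + 1) := by
    have := Nat.div_add_mod (cell q n k) q
    have := Nat.mod_lt (cell q n k) hq
    rw [mul_add]
    omega
  have h4 : (cell q n k : ℝ) ≤ q * (2 * (cell q n k / q : ℕ)) := by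
    have h5 : cell q n k ≤ q * (2 * (cell q n k / q)) :=
      h3.le.trans (Nat.mul_le_mul_left _ (by omega))
    exact_mod_cast h5
  rw [cell_succ]
  push_cast
  have h6 : 1 / (2 * (q : ℝ)) * cell q n k ≤ (cell q n k / q : ℕ) := by
    rw [one_div_mul_eq_div, div_le_iff₀ (by positivity)]
    linarith
  linarith

lemma cell_pow {q n : ℕ} (hq : 1 ≤ q) (hn : q ≤ n) (k : ℕ) :
    (1 + 1 / (2 * (q : ℝ))) ^ k ≤ cell q n k := by
  have hq0 : (0 : ℝ) < q := by exact_mod_cast hq
  induction k with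
  | zero =>
    rw [pow_zero, cell_zero]
    exact_mod_cast hq.trans hn
  | succ k ih =>
    rw [pow_succ, mul_comm]
    exact (mul_le_mul_of_nonneg_left ih (by positivity)).trans (cell_growth hq hn k)

lemma cell_count {q n : ℕ} (hq : 1 ≤ q) (hn : q ≤ n) {k : ℕ} {X : ℝ} (h : (cell q n k : ℝ) ≤ X) :
    (k : ℝ) ≤ (2 * q + 1) * Real.log X := by
  have hq0 : (0 : ℝ) < q := by exact_mod_cast hq
  have h1 := (cell_pow hq hn k).trans h
  have h0 : (0 : ℝ) < 1 + 1 / (2 * (q : ℝ)) := by positivity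
  have h2 := Real.log_le_log (by positivity) h1
  rw [Real.log_pow] at h2
  have h3 := Real.one_sub_inv_le_log_of_pos h0
  have h4 : 1 - (1 + 1 / (2 * (q : ℝ)))⁻¹ = 1 / (2 * q + 1) := by
    field_simp
    ring
  rw [h4] at h3
  have h5 : (k : ℝ) * (1 / (2 * q + 1)) ≤ Real.log X :=
    (mul_le_mul_of_nonneg_left h3 (Nat.cast_nonneg k)).trans h2
  rw [mul_one_div, div_le_iff₀ (by positivity)] at h5
  linarith

/-- the last normal cell -/
lemma exists_last {q n : ℕ} (hq : 1 ≤ q) (hn : q ≤ n) {X : ℝ} (hX : (n : ℝ) ≤ X) :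
    ∃ K : ℕ, (∀ k ≤ K, (cell q n k : ℝ) ≤ X) ∧ X < 2 * cell q n K := by
  classical
  have hm := cell_strictMono hq hn
  have hex : ∃ k : ℕ, X < cell q n k := by
    obtain ⟨k, hk⟩ := exists_nat_gt X
    exact ⟨k, hk.trans_le (by exact_mod_cast hm.id_le k)⟩
  have h1 := Nat.find_spec hex
  have h2 : Nat.find hex ≠ 0 := fun h => by
    rw [h, cell_zero] at h1
    linarith
  obtain ⟨K, hK⟩ := Nat.exists_eq_succ_of_ne_zero h2
  refine ⟨K, fun k hk => ?_, ?_⟩
  · exact not_lt.1 (Nat.find_min hex (by omega : k < Nat.find hex))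
  · rw [hK] at h1
    have h3 : (cell q n (K + 1) : ℝ) ≤ 2 * cell q n K := by exact_mod_cast cell_le_two q n K
    exact h1.trans_le h3

/-- all columns: the normal cells `0, …, K - 1` and the big cell `K` -/
def cols (q n K k : ℕ) : ℕ := if k ≤ K then cell q n k else 2 * cell q n K + (k - K - 1)

lemma cols_of_le {q n K k : ℕ} (h : k ≤ K) : cols q n K k = cell q n k := if_pos h

lemma cols_last (q n K : ℕ) : cols q n K (K + 1) = 2 * cell q n K := by
  simp [cols]

lemma cols_strictMono {q n : ℕ} (hq : 1 ≤ q) (hn : q ≤ n) (K : ℕ) :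
    StrictMono (cols q n K) := by
  refine strictMono_nat_of_lt_succ fun k => ?_
  have h0 := cell_ge q n K
  rcases lt_trichotomy k K with h | h | h
  · rw [cols_of_le h.le, cols_of_le h]
    exact cell_lt hq hn k
  · subst h
    rw [cols_of_le (le_refl _), cols_last]
    omega
  · unfold cols
    rw [if_neg (by omega), if_neg (by omega)]
    omega

end Vale.Agent.P159.T1.D.H172
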