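import Vale.Agent.P159.T1.D.H598.AxisR1
import Vale.Agent.P159.T1.D.H172.Axis
import Vale.Agent.P159.T1.D.H172.Good
import Vale.Agent.P159.T1.D.H857.Top
import Vale.Agent.P159.T1.D.H802.MainF
import Vale.Agent.P159.T1.H995.Rows
import Vale.Agent.P159.T1.D.H85.Tip
import Vale.Agent.P159.T1.D.H407.Tilt
import Vale.Agent.P159.T1.H565.Up7
import Vale.Agent.P159.T1.D.H130.UFin
import Vale.Agent.P159.T1.D.H469.UV
import Vale.Agent.P159.T1.H532.StmtVF
import Vale.Agent.P159.T1.H664.Arm
import Vale.Agent.P159.T1.D.H459.Den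
import Vale.Agent.P159.T1.D.H770.LowFin
import Vale.Agent.P159.T1.H407.ArmTilt
import Vale.Agent.P159.T1.H315.MidD

/-!
The direct route with all rows that are proved.
-/

open Filter Topology

namespace Vale.Agent.P159.T1.D.H172

open Vale.Agent.P159 Vale.Agent.P159.H353 Vale.Agent.P159.T1.D

/-- the row D.LOW -/
theorem low : StmtLow := H770.stmtLow H532.stmtV (H469.uv_of_u stmtU)

/-- the row D.ARM -/
theorem arm : StmtArm :=
  H664.arm_of (H664.stmtNum stmtU) (H459.stmtDen H532.stmtV (H469.uv_of_u stmtU)) H407.stmtTilt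

/-- the row D.MID -/
theorem mid : StmtMid := H315.stmtMid stmtU (H469.uv_of_u stmtU) H532.stmtV

/-- **the exponent `1 / 4` on the axis** -/
theorem axisB_fin {b : ℝ} (hb : bCrit ≤ b) : F.AxisB b (1 / 4) :=
  axisB H857.stmtTop H802.stmtMain H995.stmtCover H995.stmtSep H995.stmtSepM H85.stmtTip stmtPos
    (H565.up stmtU) low arm mid hb

/-- **the lower bound on the axis** -/
theorem stmtAxis : StmtAxis :=
  axis H857.stmtTop H802.stmtMain H995.stmtCover H995.stmtSep H995.stmtSepM H85.stmtTip stmtPos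
    (H565.up stmtU) low arm mid

/-- the product bound -/
theorem stmtGoodV : StmtGoodV :=
  goodV H802.stmtMain H995.stmtCover H995.stmtSep H995.stmtSepM H85.stmtTip stmtPos
    arm mid fun b hb =>
      ⟨H170.bCrit_pos.trans_le hb, lt_of_lt_of_le (by positivity) (helicity_ge hb)⟩

/-- **the exponent `1 / √(8 π Y)` on the axis** -/
theorem axisR {b : ℝ} (hb : bCrit ≤ b) :
    F.AxisB b (1 / Real.sqrt (8 * Real.pi * helicity b)) :=
  H598.axisR1 H857.stmtTop H802.stmtMain H995.stmtCover H995.stmtSep H995.stmtSepM H85.stmtTip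
    stmtPos (H565.up stmtU) low arm mid hb

end Vale.Agent.P159.T1.D.H172
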