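import Vale.Agent.P159.T1.D.H407.Tilt
import Vale.Agent.P159.T1.H910.DKit

/-!
The reflection which exchanges the two tips: partition functions, paths and arms.
-/

open Filter Topology

namespace Vale.Agent.P159.T1.D.H172

open Vale.Agent.P159.H353 Vale.Agent.P159.T1.D

variable {r R : ℕ} {U : Finset Z2}

lemma mir_inj (r : ℕ) : Function.Injective (mir r) :=
  Function.Involutive.injective (mir_mir r)

lemma mirB_inj (r : ℕ) : Function.Injective (mirB r) :=
  Function.Involutive.injective (mirB_mirB r)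

lemma mem_image_mir {f : Z2} : f ∈ U.image (mir r) ↔ mir r f ∈ U := by
  rw [Finset.mem_image]
  constructor
  · rintro ⟨g, hg, rfl⟩
    rwa [mir_mir]
  · intro h
    exact ⟨_, h, mir_mir r f⟩

lemma image_mir_SB : (SB R r).image (mir r) = SB R r := by
  ext f
  rw [mem_image_mir]
  refine ⟨fun h => ?_, fun h => mir_SB h⟩
  have := mir_SB h
  rwa [mir_mir] at this

lemma lf_mirB (e : Bnd) : lf (mirB r e) = if e.2 then mir r (rt e) else mir r (lf e) := by
  obtain ⟨⟨x, y⟩, b⟩ := e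
  cases b
  · simp [lf, mirB, mir]
  · simp [lf, rt, mirB, mir]
    ring

lemma rt_mirB (e : Bnd) : rt (mirB r e) = if e.2 then mir r (lf e) else mir r (rt e) := by
  obtain ⟨⟨x, y⟩, b⟩ := e
  cases b
  · simp [rt, mirB, mir]
  · simp [lf, rt, mirB, mir]

lemma bd_image_mir : bd (U.image (mir r)) = (bd U).image (mirB r) := by
  ext e
  rw [H910.mem_bd]
  constructor
  · intro h
    rw [Finset.mem_image]
    refine ⟨mirB r e, ?_, mirB_mirB r e⟩
    rw [H910.mem_bd, lf_mirB, rt_mirB]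
    rw [mem_image_mir, mem_image_mir] at h
    split_ifs <;> tauto
  · intro h
    rw [Finset.mem_image] at h
    obtain ⟨g, hg, rfl⟩ := h
    rw [H910.mem_bd] at hg
    rw [mem_image_mir, mem_image_mir, lf_mirB, rt_mirB]
    split_ifs <;> rw [mir_mir, mir_mir] <;> tauto

lemma dh_mir (h : Z2 → ℤ) (e : Bnd) :
    dh (fun f => h (mir r f)) (mirB r e) = if e.2 then -dh h e else dh h e := by
  unfold dh
  rw [lf_mirB, rt_mirB]
  split_ifs
  · simp only [mir_mir]
    ring
  · simp only [mir_mir]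

lemma wt_mir (b : ℝ) (U : Finset Z2) (h : Z2 → ℤ) :
    wt b (U.image (mir r)) 0 (fun f => h (mir r f)) = wt b U 0 h := by
  unfold wt
  rw [bd_image_mir, Finset.prod_image fun _ _ _ _ h => mirB_inj r h]
  refine Finset.prod_congr rfl fun e _ => ?_
  rw [dh_mir, Pi.zero_apply, Pi.zero_apply, add_zero, add_zero]
  split_ifs
  · rw [wI_neg]
  · rfl

lemma ch_mir (U : Finset Z2) (ρ : Z2 → ℝ) (h : Z2 → ℤ) :
    ch (U.image (mir r)) (fun f => ρ (mir r f)) (fun f => h (mir r f)) = ch U ρ h := by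
  unfold ch
  rw [Finset.sum_image fun _ _ _ _ h => mir_inj r h]
  refine Finset.sum_congr rfl fun e _ => ?_
  simp only [mir_mir]

/-- reflection of the heights -/
def htMir (r : ℕ) (U : Finset Z2) : Ht U ≃ Ht (U.image (mir r)) where
  toFun h := ⟨fun f => h.1 (mir r f), fun f hf => h.2 _ fun h' => hf (mem_image_mir.2 h')⟩
  invFun h := ⟨fun f => h.1 (mir r f), fun f hf => h.2 _ fun h' => hf (by
    rw [mem_image_mir, mir_mir] at h'
    exact h')⟩
  left_inv h := by
    ext f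
    simp only [mir_mir]
  right_inv h := by
    ext f
    simp only [mir_mir]

/-- **the reflection does not change the partition functions** -/
theorem Zρ_mir (b : ℝ) (U : Finset Z2) (ρ : Z2 → ℝ) :
    Zρ b (U.image (mir r)) (fun f => ρ (mir r f)) = Zρ b U ρ := by
  unfold Zρ
  rw [← (htMir r U).tsum_eq]
  refine tsum_congr fun h => ?_
  have e1 := wt_mir (r := r) b U h.1
  have e2 := ch_mir (r := r) U ρ h.1
  change wt b _ 0 (fun f => h.1 (mir r f)) * Real.exp (ch _ _ fun f => h.1 (mir r f)) = _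
  rw [e1, e2]

lemma adj_mir {X : Set Z2} (hU : ∀ f ∈ U, mir r f ∈ U) {f g : Z2} (h : adj U X f g) :
    adj U (mir r ⁻¹' X) (mir r f) (mir r g) := by
  obtain ⟨⟨h1, h2⟩, ⟨h3, h4⟩, e, he⟩ := h
  refine ⟨⟨hU f h1, ?_⟩, ⟨hU g h3, ?_⟩, mirB r e, ?_⟩
  · rwa [Set.mem_preimage, mir_mir]
  · rwa [Set.mem_preimage, mir_mir]
  · rw [lf_mirB, rt_mirB]
    rcases he with ⟨rfl, rfl⟩ | ⟨rfl, rfl⟩ <;> split_ifs <;> simp

lemma Jn_mir {X A B : Set Z2} (hU : ∀ f ∈ U, mir r f ∈ U) (h : Jn U X A B) :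
    Jn U (mir r ⁻¹' X) (mir r ⁻¹' A) (mir r ⁻¹' B) := by
  obtain ⟨a, ha, b, hb, ⟨h1, h2⟩, h3⟩ := h
  refine ⟨mir r a, ?_, mir r b, ?_, ⟨hU a h1, ?_⟩, ?_⟩
  · rwa [Set.mem_preimage, mir_mir]
  · rwa [Set.mem_preimage, mir_mir]
  · rwa [Set.mem_preimage, mir_mir]
  · clear hb
    induction h3 with
    | refl => exact Relation.ReflTransGen.refl
    | tail _ h5 ih => exact ih.tail (adj_mir hU h5)

lemma Jn_mono {X X' A A' B B' : Set Z2} (hX : X ⊆ X') (hA : A ⊆ A') (hB : B ⊆ B')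
    (h : Jn U X A B) : Jn U X' A' B' := by
  obtain ⟨a, ha, b, hb, ⟨h1, h2⟩, h3⟩ := h
  refine ⟨a, hA ha, b, hB hb, ⟨h1, hX h2⟩, ?_⟩
  clear hb
  induction h3 with
  | refl => exact Relation.ReflTransGen.refl
  | tail _ h5 ih =>
    exact ih.tail ⟨⟨h5.1.1, hX h5.1.2⟩, ⟨h5.2.1.1, hX h5.2.1.2⟩, h5.2.2⟩

lemma Arm_mono {T Q N N' : Set Z2} (hN : N ⊆ N') (h : Arm U T Q N) : Arm U T Q N' :=
  Jn_mono (fun _ hf => ⟨hN hf.1, hf.2⟩) (fun _ => id) (fun _ => id) h

lemma preimage_mir_mir (X : Set Z2) : mir r ⁻¹' (mir r ⁻¹' X) = X := by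
  ext f
  rw [Set.mem_preimage, Set.mem_preimage, mir_mir]

lemma mir_upp : mir r ⁻¹' upp (SB R r) = upp (SB R r) := by
  have key : ∀ f, f ∈ upp (SB R r) → mir r f ∈ upp (SB R r) := by
    rintro f ⟨e, he, h0, h1⟩
    refine ⟨mirB r e, ?_, ?_, ?_⟩
    · obtain ⟨x, y⟩ := f
      simp only [sides, Finset.mem_insert, Finset.mem_singleton] at he ⊢
      rcases he with rfl | rfl | rfl | rfl
      · left
        simp [mirB, mir]
      · right; left
        simp [mirB, mir]
      · right; right; right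
        simp only [mirB, mir, if_true]
        rw [show (r : ℤ) - 1 - x + 1 = r - x by ring]
      · right; right; left
        simp only [mirB, mir, if_true]
        rw [show (r : ℤ) - (x + 1) = r - 1 - x by ring]
    · obtain ⟨⟨x, y⟩, b⟩ := e
      cases b <;> simpa [mirB] using h0
    · have h2 : ∀ g, g ∉ SB R r → mir r g ∉ SB R r := fun g hg hg' => hg (by
        have := mir_SB hg'
        rwa [mir_mir] at this)
      rw [lf_mirB, rt_mirB]
      split_ifs
      · exact h1.symm.imp (h2 _) (h2 _)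
      · exact h1.imp (h2 _) (h2 _)
  ext f
  refine ⟨fun h => ?_, fun h => key f h⟩
  have := key _ h
  rwa [mir_mir] at this

/-- the arms in a symmetric target -/
lemma Arm_mir {T Q N : Set Z2} (hT : mir r ⁻¹' T = T)
    (h : Arm (SB R r) T (mir r ⁻¹' Q) N) : Arm (SB R r) T Q (mir r ⁻¹' N) := by
  unfold Arm at *
  have h1 := Jn_mir (fun f hf => mir_SB hf) h
  rw [mir_upp, preimage_mir_mir] at h1
  refine Jn_mono ?_ (fun _ => id) (fun _ => id) h1
  intro f hf
  rw [Set.mem_preimage] at hf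
  obtain ⟨h2, h3⟩ := hf
  refine ⟨h2, fun h4 => h3 ⟨?_, fun h5 => h4.2 ?_⟩⟩
  · rw [← hT] at h4
    exact h4.1
  · rwa [Set.mem_preimage, mir_mir] at h5

end Vale.Agent.P159.T1.D.H172
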