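import Vale.Agent.P159.T1.D.H172.Rows
import Vale.Agent.P159.T1.D.H172.Cells

/-!
D.MAIN for all cells at once.
-/

open Filter Topology

namespace Vale.Agent.P159.T1.D.H172

open Vale.Agent.P159.H353 Vale.Agent.P159.T1.D

/-- the events -/
def evt (R r q n K : ℕ) : Option (Bool × ℕ) → Set Z2 → Prop
  | none => fun N => ¬ Jn (SB R r) Nᶜ (strip q 1 (2 * cell q n K))
      (mir r ⁻¹' strip q 1 (2 * cell q n K))
  | some (false, k) => fun N => Arm (SB R r) (tgt q r n (2 * cell q n K))
      (strip q (cols q n K k) (cols q n K (k + 1))) N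
  | some (true, k) => fun N => Arm (SB R r) (tgt q r n (2 * cell q n K))
      (mir r ⁻¹' strip q (cols q n K k) (cols q n K (k + 1))) N

/-- the factors -/
noncomputable def fac (K : ℕ) (t θ : ℝ) : Option (Bool × ℕ) → ℝ
  | none => 1 - θ
  | some (_, k) => if k < K then 1 - t else 1 - θ

lemma prod_fac (K : ℕ) (t θ : ℝ) :
    ∏ i ∈ Finset.insertNone ((Finset.univ : Finset Bool) ×ˢ Finset.range (K + 1)), fac K t θ i =
      (1 - θ) ^ 3 * (1 - t) ^ (2 * K) := by
  rw [Finset.prod_insertNone, Finset.prod_product, Fintype.prod_bool]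
  have h : ∀ c : Bool, ∏ k ∈ Finset.range (K + 1), fac K t θ (some (c, k)) =
      (1 - t) ^ K * (1 - θ) := by
    intro c
    rw [Finset.prod_range_succ]
    have h1 : ∏ k ∈ Finset.range K, fac K t θ (some (c, k)) = (1 - t) ^ K := by
      have h2 : ∀ k ∈ Finset.range K, fac K t θ (some (c, k)) = 1 - t := fun k hk =>
        if_pos (Finset.mem_range.1 hk)
      rw [Finset.prod_congr rfl h2, Finset.prod_const, Finset.card_range]
    rw [h1]
    congr 1
    exact if_neg (lt_irrefl K)
  rw [h, h]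
  change (1 - θ) * _ = _
  ring

/-- **all events** -/
theorem all_rows (hMain : StmtMain) (hCover : StmtCover) (hSep : StmtSep) (hSepM : StmtSepM)
    (hPos : StmtPos) {b V κ x y s x' t θ : ℝ} {R q n0 n r K : ℕ}
    (hb : 0 < b) (hY : 0 < helicity b)
    (hV : 0 < V) (hq : 1 ≤ q) (hκ : 0 ≤ κ) (hR : 2 ≤ R) (hr : 1 ≤ r) (hqn : q < n)
    (hMR : 2 * cell q n K ≤ R) (hnr : 2 * n ≤ r) (ht : t ≤ 1) (hθ : θ ≤ 1)
    (hE : ∀ f ∈ tips R r n, 0 ≤ E b (SB R r) fun h => if 1 ≤ h f then 1 else 0)
    (hArm : ∀ k < K, ∃ ρA ρB : Z2 → ℝ, (∀ f, 0 ≤ ρA f ∧ 0 ≤ ρB f ∧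
          ρA f + ρB f ≤ ro (helicity b) V q (clp n0 ((r : ℝ) / 4)) f) ∧
        (∀ f, f ∉ strip q 1 (cell q n k) → ρA f = 0) ∧
        (∀ f, f ∉ strip q (cell q n k + cell q n k / q) (2 * cell q n k) → ρB f = 0) ∧
        ∀ Q : Finset Z2,
          (∀ f, f ∈ Q ↔ f ∈ strip q (cell q n k) (cell q n k + cell q n k / q)) →
        Zρ b (SB R r \ Q) (fun f => ρA f - ρB f) ≤
          t * Zρ b (SB R r \ Q) (fun f => ρA f + ρB f))
    (hb1 : ∀ f, f ∉ strip q 1 (cell q n K) → bump r κ x y s f = 0)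
    (hx' : x' * r ≤ cell q n K)
    (hMid : ∀ Q : Finset Z2, (∀ f ∈ Q, x' * (r : ℝ) ≤ -(f.1 : ℝ)) →
      Zρ b (SB R r \ Q) (fun f => bump r κ x y s f - bump r κ x y s (mir r f)) ≤
        θ * Zρ b (SB R r \ Q) (fun f => bump r κ x y s f + bump r κ x y s (mir r f))) :
    Z b (SB R r) * Zρ b (SB R r) (rho (helicity b) V q n0 r κ x y s) *
        ((1 - θ) ^ 3 * (1 - t) ^ (2 * K)) *
        (∏ f ∈ tips R r n, E b (SB R r) fun h => if 1 ≤ h f then 1 else 0) ≤
      Zs b (SB R r) 1 0 * Zs b (SB R r) 1 (rho (helicity b) V q n0 r κ x y s) := by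
  classical
  set ρ := rho (helicity b) V q n0 r κ x y s with hρ
  set M := 2 * cell q n K with hM
  have hge := fun k => cell_ge q n k
  have hmono := cell_strictMono hq hqn.le
  -- the rows of the left side
  have hleft : ∀ k < K + 1, Row b R r ρ (fun N => Arm (SB R r) (tgt q r n M)
      (strip q (cols q n K k) (cols q n K (k + 1))) N) (if k < K then 1 - t else 1 - θ) := by
    intro k hk
    by_cases h : k < K
    · rw [if_pos h, cols_of_le h.le, cols_of_le (Nat.succ_le_of_lt h), cell_succ]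
      have h1 : cell q n k ≤ cell q n K := hmono.monotone h.le
      exact row_cell hSep hPos hb hY hV hq hκ hR (by omega) (hqn.le.trans (hge k)) (hge k)
        (by omega) hMR hnr (hArm k h)
    · have h1 : k = K := by omega
      subst h1
      rw [if_neg h, cols_of_le (le_refl _), cols_last]
      have h2 := hge k
      exact row_big hSepM hPos hb hY hV hq hκ hR hqn (hge k) (by omega) hMR hnr hb1 hx' hMid
  have key := main_rows hMain (ρ := ρ) hb hR hr (fun f => rho_nonneg hPos hY hV hq hκ f)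
    (Finset.insertNone ((Finset.univ : Finset Bool) ×ˢ Finset.range (K + 1)))
    (evt R r q n K) (fac K t θ) ?_ ?_ (tips R r n) (fun f hf => (mem_tips.1 hf).1) hE ?_
  · rwa [prod_fac] at key
  · rintro (_ | ⟨c, k⟩) _
    · exact sub_nonneg.2 hθ
    · change 0 ≤ if k < K then 1 - t else 1 - θ
      split_ifs
      · exact sub_nonneg.2 ht
      · exact sub_nonneg.2 hθ
  · rintro (_ | ⟨c, k⟩) hi
    · refine row_mid hPos hb hY hV hq hκ (fun f hf => hb1 f fun h => hf ?_) hMid
      exact strip_mono (le_refl _) (by omega) h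
    · rw [Finset.some_mem_insertNone, Finset.mem_product, Finset.mem_range] at hi
      have h1 := hleft k hi.2
      cases c
      · exact h1
      · refine (h1.mir fun f => rho_mir _ _ _ _ _ _ _ _ _ f).congr (fun N hN => ?_)
          fun N N' hN h => Arm_mono hN h
        exact Arm_mir (mir_tgt q r n M) hN
  · intro N hN
    have h1 := hCover R r q n (K + 1) (cols q n K) hR hq hqn (cols_strictMono hq hqn.le K)
      (by rw [cols_of_le (Nat.zero_le _), cell_zero]) (by rw [cols_last]; exact hMR) hnr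
      (by have := hge K; omega) N hN
    rw [cols_last] at h1
    rcases h1 with ⟨k, hk, h⟩ | ⟨k, hk, h⟩ | ⟨f, hf, h2, h3⟩ | h
    · left
      refine ⟨some (false, k), ?_, h⟩
      rw [Finset.some_mem_insertNone, Finset.mem_product, Finset.mem_range]
      exact ⟨Finset.mem_univ _, hk⟩
    · left
      refine ⟨some (true, k), ?_, h⟩
      rw [Finset.some_mem_insertNone, Finset.mem_product, Finset.mem_range]
      exact ⟨Finset.mem_univ _, hk⟩
    · right
      exact ⟨f, mem_tips.2 ⟨hf, h2⟩, h3⟩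
    · left
      exact ⟨none, Finset.none_mem_insertNone, h⟩

end Vale.Agent.P159.T1.D.H172
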