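import Vale.Agent.P159.T1.D.H172.Mir

/-!
The rows of D.MAIN, the rows of the reflected events, and the tips.
-/

open Filter Topology

namespace Vale.Agent.P159.T1.D.H172

open Vale.Agent.P159.H353 Vale.Agent.P159.T1.D

open Classical in
/-- the data for one event in D.MAIN; `w` is a lower bound for its factor -/
def Row (b : ℝ) (R r : ℕ) (ρ : Z2 → ℝ) (P : Set Z2 → Prop) (w : ℝ) : Prop :=
  ∃ (A B : Set Z2) (Q : Finset Z2) (ρA ρB : Z2 → ℝ),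
    (∀ f, 0 ≤ ρA f ∧ 0 ≤ ρB f ∧ ρA f + ρB f ≤ ρ f) ∧
    (∀ f, f ∉ A → ρA f = 0) ∧ (∀ f, f ∉ B → ρB f = 0) ∧
    (∀ N N' : Set Z2, N ⊆ N' → P N → P N') ∧
    (∀ N : Set Z2, P N → ¬ Jn (SB R r) (N ∪ Q)ᶜ A B) ∧
    w ≤ 1 - Zρ b (SB R r \ Q) (fun f => ρA f - ρB f) /
      Zρ b (SB R r \ Q) (fun f => ρA f + ρB f)

/-- D.MAIN with lower bounds for the factors -/
theorem main_rows (hMain : StmtMain) {b : ℝ} {R r : ℕ} {ρ : Z2 → ℝ} (hb : 0 < b) (hR : 2 ≤ R)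
    (hr : 1 ≤ r) (hρ : ∀ f, 0 ≤ ρ f) {ι : Type} (I : Finset ι) (P : ι → Set Z2 → Prop)
    (w : ι → ℝ) (hw : ∀ i ∈ I, 0 ≤ w i) (hrow : ∀ i ∈ I, Row b R r ρ (P i) (w i))
    (F : Finset Z2) (hF : F ⊆ SB R r)
    (hE : ∀ f ∈ F, 0 ≤ E b (SB R r) fun h => if 1 ≤ h f then 1 else 0)
    (hcov : ∀ N : Set Z2, Jn (SB R r) N (upp (SB R r)) (low (SB R r)) →
      (∃ i ∈ I, P i N) ∨ ∃ f ∈ F, f ∈ N) :
    Z b (SB R r) * Zρ b (SB R r) ρ * (∏ i ∈ I, w i) *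
        (∏ f ∈ F, E b (SB R r) fun h => if 1 ≤ h f then 1 else 0) ≤
      Zs b (SB R r) 1 0 * Zs b (SB R r) 1 ρ := by
  classical
  have hrow' : ∀ i, ∃ (A B : Set Z2) (Q : Finset Z2) (ρA ρB : Z2 → ℝ), i ∈ I →
      (∀ f, 0 ≤ ρA f ∧ 0 ≤ ρB f ∧ ρA f + ρB f ≤ ρ f) ∧
      (∀ f, f ∉ A → ρA f = 0) ∧ (∀ f, f ∉ B → ρB f = 0) ∧
      (∀ N N' : Set Z2, N ⊆ N' → P i N → P i N') ∧
      (∀ N : Set Z2, P i N → ¬ Jn (SB R r) (N ∪ Q)ᶜ A B) ∧
      w i ≤ 1 - Zρ b (SB R r \ Q) (fun f => ρA f - ρB f) /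
        Zρ b (SB R r \ Q) (fun f => ρA f + ρB f) := by
    intro i
    by_cases hi : i ∈ I
    · obtain ⟨A, B, Q, ρA, ρB, h⟩ := hrow i hi
      exact ⟨A, B, Q, ρA, ρB, fun _ => h⟩
    · exact ⟨∅, ∅, ∅, 0, 0, fun h => absurd h hi⟩
  choose A B Q ρA ρB h using hrow'
  refine le_trans ?_ (hMain b R r ρ ι I P A B Q ρA ρB F hb hR hr hρ hF
    (fun i hi => (h i hi).1) (fun i hi => (h i hi).2.1) (fun i hi => (h i hi).2.2.1)
    (fun i hi => (h i hi).2.2.2.1) (fun i hi => (h i hi).2.2.2.2.1) hcov)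
  have h1 : 0 ≤ ∏ f ∈ F, E b (SB R r) fun h => if 1 ≤ h f then (1 : ℝ) else 0 :=
    Finset.prod_nonneg hE
  refine mul_le_mul_of_nonneg_right ?_ h1
  refine mul_le_mul_of_nonneg_left ?_
    (mul_pos (H910.Z_pos hb.le _) (H910.Zρ_pos hb.le _ _)).le
  exact Finset.prod_le_prod hw fun i hi => le_max_of_le_right (h i hi).2.2.2.2.2

/-- the row of a reflected event -/
theorem Row.mir {b : ℝ} {R r : ℕ} {ρ : Z2 → ℝ} {P : Set Z2 → Prop} {w : ℝ}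
    (h : Row b R r ρ P w) (hρ : ∀ f, ρ (D.mir r f) = ρ f) :
    Row b R r ρ (fun N => P (D.mir r ⁻¹' N)) w := by
  classical
  obtain ⟨A, B, Q, ρA, ρB, h1, h2, h3, h4, h5, h6⟩ := h
  have hQ : SB R r \ Q.image (D.mir r) = (SB R r \ Q).image (D.mir r) := by
    ext f
    rw [Finset.mem_sdiff, mem_image_mir, mem_image_mir, Finset.mem_sdiff]
    have e : D.mir r f ∈ SB R r ↔ f ∈ SB R r :=
      ⟨fun h => by have := mir_SB h; rwa [mir_mir] at this, mir_SB⟩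
    rw [e]
  refine ⟨D.mir r ⁻¹' A, D.mir r ⁻¹' B, Q.image (D.mir r), fun f => ρA (D.mir r f),
    fun f => ρB (D.mir r f), fun f => ?_, fun f hf => h2 _ hf, fun f hf => h3 _ hf,
    fun N N' hN h => h4 _ _ (Set.preimage_mono hN) h, fun N hN hJ => ?_, ?_⟩
  · obtain ⟨h7, h8, h9⟩ := h1 (D.mir r f)
    rw [hρ] at h9
    exact ⟨h7, h8, h9⟩
  · refine h5 _ hN ?_
    have h7 := Jn_mir (fun f hf => mir_SB hf) hJ
    rw [preimage_mir_mir, preimage_mir_mir] at h7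
    refine Jn_mono (fun f hf => ?_) (fun _ => id) (fun _ => id) h7
    rw [Set.mem_preimage, Set.mem_compl_iff] at hf
    rw [Set.mem_compl_iff]
    intro h8
    refine hf ?_
    rcases h8 with h8 | h8
    · exact Or.inl h8
    · right
      rw [Finset.mem_coe, mem_image_mir, mir_mir]
      exact h8
  · rw [hQ]
    have e1 := Zρ_mir (r := r) b (SB R r \ Q) (fun f => ρA f - ρB f)
    have e2 := Zρ_mir (r := r) b (SB R r \ Q) (fun f => ρA f + ρB f)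
    rw [e1, e2]
    exact h6

/-- a weaker event -/
theorem Row.congr {b : ℝ} {R r : ℕ} {ρ : Z2 → ℝ} {P P' : Set Z2 → Prop} {w : ℝ}
    (h : Row b R r ρ P w) (h1 : ∀ N, P' N → P N) (h2 : ∀ N N' : Set Z2, N ⊆ N' → P' N → P' N') :
    Row b R r ρ P' w := by
  obtain ⟨A, B, Q, ρA, ρB, h3, h4, h5, _, h6, h7⟩ := h
  exact ⟨A, B, Q, ρA, ρB, h3, h4, h5, h2, fun N hN => h6 N (h1 N hN), h7⟩

/-! ### the faces near the tips -/

open Classical in
/-- the faces near the two tips -/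
noncomputable def tips (R r n : ℕ) : Finset Z2 :=
  (SB R r).filter fun f => f ∈ tip n ∨ mir r f ∈ tip n

lemma mem_tips {R r n : ℕ} {f : Z2} :
    f ∈ tips R r n ↔ f ∈ SB R r ∧ (f ∈ tip n ∨ mir r f ∈ tip n) := by
  classical
  exact Finset.mem_filter

lemma card_tips (R r n : ℕ) : (tips R r n).card ≤ 2 * (2 * n) ^ 2 := by
  classical
  set G : Finset Z2 := Finset.Ico (-(n : ℤ)) n ×ˢ Finset.Ico (-(n : ℤ)) n with hG
  have h1 : ∀ f : Z2, f ∈ tip n → f ∈ G := by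
    intro f hf
    rw [hG, Finset.mem_product, Finset.mem_Ico, Finset.mem_Ico]
    exact ⟨⟨hf.1, hf.2.1⟩, hf.2.2.1, hf.2.2.2⟩
  have h2 : tips R r n ⊆ G ∪ G.image (mir r) := by
    intro f hf
    rw [mem_tips] at hf
    rw [Finset.mem_union, mem_image_mir]
    exact hf.2.imp (h1 _) (h1 _)
  have h3 : G.card = (2 * n) ^ 2 := by
    rw [hG, Finset.card_product, Int.card_Ico, sub_neg_eq_add]
    have : ((n : ℤ) + n).toNat = 2 * n := by omega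
    rw [this]
    ring
  calc (tips R r n).card ≤ (G ∪ G.image (mir r)).card := Finset.card_le_card h2
    _ ≤ G.card + (G.image (mir r)).card := Finset.card_union_le _ _
    _ ≤ G.card + G.card := Nat.add_le_add_left Finset.card_image_le _
    _ = 2 * (2 * n) ^ 2 := by rw [h3]; ring

lemma prod_tips {b p : ℝ} {R r n : ℕ} (hp0 : 0 < p) (hp1 : p ≤ 1)
    (h : ∀ (U : Finset Z2) (f : Z2), f ∈ U → p ≤ E b U fun h => if 1 ≤ h f then 1 else 0) :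
    p ^ (2 * (2 * n) ^ 2) ≤
      ∏ f ∈ tips R r n, E b (SB R r) fun h => if 1 ≤ h f then 1 else 0 := by
  calc p ^ (2 * (2 * n) ^ 2) ≤ p ^ (tips R r n).card :=
        pow_le_pow_of_le_one hp0.le hp1 (card_tips R r n)
    _ = ∏ _f ∈ tips R r n, p := by rw [Finset.prod_const]
    _ ≤ _ := Finset.prod_le_prod (fun _ _ => hp0.le) fun f hf => h _ _ (mem_tips.1 hf).1

end Vale.Agent.P159.T1.D.H172
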