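import Vale.Agent.P159.T1.D.H172.Row

/-!
The rows for the cells, the big cell and the middle.
-/

open Filter Topology

namespace Vale.Agent.P159.T1.D.H172

open Vale.Agent.P159.H353 Vale.Agent.P159.T1.D

/-! ### strips -/

lemma strip_mono {q a a' c c' : ℕ} (h1 : c ≤ a) (h2 : a' ≤ c') :
    strip q a a' ⊆ strip q c c' := fun f hf => by
  obtain ⟨h3, h4, h5⟩ := hf
  refine ⟨h3, ?_, ?_⟩
  · exact le_trans (by exact_mod_cast h1) h4
  · exact lt_of_lt_of_le h5 (by exact_mod_cast h2)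

lemma exists_stripF {q : ℕ} (hq : 1 ≤ q) (a a' : ℕ) :
    ∃ Q : Finset Z2, ∀ f, f ∈ Q ↔ f ∈ strip q a a' := by
  classical
  refine ⟨(Finset.Ico (-(a' : ℤ)) 1 ×ˢ Finset.Ico (-(a' : ℤ) - 1) 0).filter
    fun f => f ∈ strip q a a', fun f => ?_⟩
  rw [Finset.mem_filter]
  refine ⟨fun h => h.2, fun h => ⟨?_, h⟩⟩
  obtain ⟨⟨h1, h2⟩, h3, h4⟩ := h
  rw [Finset.mem_product, Finset.mem_Ico, Finset.mem_Ico]
  have h5 : -1 - f.2 ≤ (q : ℤ) * (-1 - f.2) := by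
    have : (1 : ℤ) ≤ q := by exact_mod_cast hq
    nlinarith
  omega

/-- the target of the arms -/
def tgt (q r n M : ℕ) : Set Z2 :=
  strip q 1 M ∪ mir r ⁻¹' strip q 1 M ∪ tip n ∪ mir r ⁻¹' tip n

lemma mir_tgt (q r n M : ℕ) : mir r ⁻¹' tgt q r n M = tgt q r n M := by
  unfold tgt
  rw [Set.preimage_union, Set.preimage_union, Set.preimage_union, preimage_mir_mir,
    preimage_mir_mir]
  ext f
  simp only [Set.mem_union]
  tauto

/-! ### the bumps -/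

lemma bump_nonneg {κ : ℝ} (hκ : 0 ≤ κ) (r : ℕ) (x y s : ℝ) (f : Z2) : 0 ≤ bump r κ x y s f := by
  unfold bump
  positivity

lemma bump_support {κ x y s : ℝ} {r q a : ℕ} (hr : 1 ≤ r) (hs : 0 < s)
    (hq : (q : ℝ) * (y + s) < x - s) (hy : 0 < y) (hys : 1 ≤ (y - s) * r)
    (ha : (x + s) * r ≤ a) {f : Z2} (hf : f ∉ strip q 1 a) : bump r κ x y s f = 0 := by
  by_contra h
  apply hf
  clear hf
  have hr0 : (0 : ℝ) < r := by exact_mod_cast hr
  have h1 : 0 < s ^ 2 - ((f.1 : ℝ) / r + x) ^ 2 - ((f.2 : ℝ) / r + y) ^ 2 := by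
    by_contra h2
    apply h
    unfold bump
    rw [max_eq_left (not_lt.1 h2)]
    simp
  have h2 : |(f.1 : ℝ) / r + x| < s := by
    apply abs_lt_of_sq_lt_sq _ hs.le
    nlinarith [sq_nonneg ((f.2 : ℝ) / r + y)]
  have h3 : |(f.2 : ℝ) / r + y| < s := by
    apply abs_lt_of_sq_lt_sq _ hs.le
    nlinarith [sq_nonneg ((f.1 : ℝ) / r + x)]
  rw [abs_lt] at h2 h3
  have e1 : (f.1 : ℝ) = (f.1 : ℝ) / r * r := by field_simp
  have e2 : (f.2 : ℝ) = (f.2 : ℝ) / r * r := by field_simp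
  set u := (f.1 : ℝ) / r with hu
  set v := (f.2 : ℝ) / r with hv
  have h4 : (x - s) * r < -(f.1 : ℝ) := by
    rw [e1]
    nlinarith
  have h5 : -(f.1 : ℝ) < (x + s) * r := by
    rw [e1]
    nlinarith
  have h6 : (y - s) * r < -(f.2 : ℝ) := by
    rw [e2]
    nlinarith
  have h7 : -(f.2 : ℝ) < (y + s) * r := by
    rw [e2]
    nlinarith
  have hq0 : (0 : ℝ) ≤ q := Nat.cast_nonneg q
  have h8 : (q : ℝ) * (-1 - f.2) < -f.1 := by
    have h9 : (q : ℝ) * (-1 - f.2) ≤ q * ((y + s) * r) :=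
      mul_le_mul_of_nonneg_left (by linarith) hq0
    have h10 : (q : ℝ) * ((y + s) * r) < (x - s) * r := by
      rw [← mul_assoc]
      exact mul_lt_mul_of_pos_right hq hr0
    linarith
  have h11 : (0 : ℝ) < x - s := lt_of_le_of_lt (by positivity) hq
  have h12 : (0 : ℝ) < (x - s) * r := by positivity
  refine ⟨⟨?_, ?_⟩, ?_, ?_⟩
  · have : (1 : ℝ) < -(f.2 : ℝ) := by linarith
    have : (1 : ℤ) < -f.2 := by exact_mod_cast this
    omega
  · have : (q : ℤ) * (-1 - f.2) < -f.1 := by exact_mod_cast h8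
    exact this.le
  · have : (0 : ℝ) < -(f.1 : ℝ) := by linarith
    have : (0 : ℤ) < -f.1 := by exact_mod_cast this
    push_cast
    omega
  · have : -(f.1 : ℝ) < a := by linarith
    exact_mod_cast this

/-! ### the charges -/

lemma clp_mono (a A : ℝ) : Monotone (clp a A) := fun _ _ h =>
  max_le_max (le_refl _) (min_le_min h (le_refl _))

lemma rho_mir (Y V : ℝ) (q n0 r : ℕ) (κ x y s : ℝ) (f : Z2) :
    rho Y V q n0 r κ x y s (mir r f) = rho Y V q n0 r κ x y s f := by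
  unfold rho
  rw [mir_mir]
  ring

section

variable {Y V κ x y s : ℝ} {q n0 r : ℕ}

lemma ro_clp_nonneg (hPos : StmtPos) (hY : 0 < Y) (hV : 0 < V) (hq : 1 ≤ q) (f : Z2) :
    0 ≤ ro Y V q (clp n0 ((r : ℝ) / 4)) f :=
  hPos Y V q _ hY hV hq (clp_mono _ _) f

lemma rho_nonneg (hPos : StmtPos) (hY : 0 < Y) (hV : 0 < V) (hq : 1 ≤ q) (hκ : 0 ≤ κ) (f : Z2) :
    0 ≤ rho Y V q n0 r κ x y s f := by
  have h1 := ro_clp_nonneg (n0 := n0) (r := r) hPos hY hV hq f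
  have h2 := ro_clp_nonneg (n0 := n0) (r := r) hPos hY hV hq (mir r f)
  have h3 := bump_nonneg hκ r x y s f
  have h4 := bump_nonneg hκ r x y s (mir r f)
  unfold rho
  linarith

lemma ro_le_rho (hPos : StmtPos) (hY : 0 < Y) (hV : 0 < V) (hq : 1 ≤ q) (hκ : 0 ≤ κ) (f : Z2) :
    ro Y V q (clp n0 ((r : ℝ) / 4)) f ≤ rho Y V q n0 r κ x y s f := by
  have h2 := ro_clp_nonneg (n0 := n0) (r := r) hPos hY hV hq (mir r f)
  have h3 := bump_nonneg hκ r x y s f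
  have h4 := bump_nonneg hκ r x y s (mir r f)
  unfold rho
  linarith

lemma bumps_le_rho (hPos : StmtPos) (hY : 0 < Y) (hV : 0 < V) (hq : 1 ≤ q) (f : Z2) :
    bump r κ x y s f + bump r κ x y s (mir r f) ≤ rho Y V q n0 r κ x y s f := by
  have h1 := ro_clp_nonneg (n0 := n0) (r := r) hPos hY hV hq f
  have h2 := ro_clp_nonneg (n0 := n0) (r := r) hPos hY hV hq (mir r f)
  unfold rho
  linarith

end

/-! ### the rows -/

lemma one_sub_ratio {b : ℝ} (hb : 0 < b) {U : Finset Z2} {ρ ρ' : Z2 → ℝ} {t : ℝ}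
    (h : Zρ b U ρ ≤ t * Zρ b U ρ') : 1 - t ≤ 1 - Zρ b U ρ / Zρ b U ρ' := by
  have h1 := H910.Zρ_pos hb.le U ρ'
  have h2 : Zρ b U ρ / Zρ b U ρ' ≤ t := by
    rw [div_le_iff₀ h1]
    exact h
  linarith

section

variable {b V κ x y s : ℝ} {R q n0 n r a M : ℕ}

/-- a normal cell -/
theorem row_cell (hSep : StmtSep) (hPos : StmtPos) (hb : 0 < b) (hY : 0 < helicity b)
    (hV : 0 < V) (hq : 1 ≤ q) (hκ : 0 ≤ κ) (hR : 2 ≤ R) (hn : 1 ≤ n) (hqa : q ≤ a)
    (hna : n ≤ a) (haM : 2 * a ≤ M) (hMR : M ≤ R) (hnr : 2 * n ≤ r) {t : ℝ}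
    (hArm : ∃ ρA ρB : Z2 → ℝ, (∀ f, 0 ≤ ρA f ∧ 0 ≤ ρB f ∧
          ρA f + ρB f ≤ ro (helicity b) V q (clp n0 ((r : ℝ) / 4)) f) ∧
        (∀ f, f ∉ strip q 1 a → ρA f = 0) ∧
        (∀ f, f ∉ strip q (a + a / q) (2 * a) → ρB f = 0) ∧
        ∀ Q : Finset Z2, (∀ f, f ∈ Q ↔ f ∈ strip q a (a + a / q)) →
        Zρ b (SB R r \ Q) (fun f => ρA f - ρB f) ≤
          t * Zρ b (SB R r \ Q) (fun f => ρA f + ρB f)) :
    Row b R r (rho (helicity b) V q n0 r κ x y s)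
      (fun N => Arm (SB R r) (tgt q r n M) (strip q a (a + a / q)) N) (1 - t) := by
  classical
  obtain ⟨ρA, ρB, h1, h2, h3, h4⟩ := hArm
  obtain ⟨Q, hQ⟩ := exists_stripF hq a (a + a / q)
  have hq2 : 1 ≤ a / q := by
    rw [Nat.one_le_div_iff hq]
    exact hqa
  have hq3 : a / q ≤ a := Nat.div_le_self a q
  refine ⟨strip q 1 a, strip q (a + a / q) M, Q, ρA, ρB, fun f => ?_, h2, fun f hf => ?_,
    fun N N' hN h => Arm_mono hN h, fun N hN => ?_, ?_⟩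
  · obtain ⟨h5, h6, h7⟩ := h1 f
    exact ⟨h5, h6, h7.trans (ro_le_rho hPos hY hV hq hκ f)⟩
  · exact h3 f fun h => hf (strip_mono (le_refl _) haM h)
  · have h5 := hSep R r q n a (a + a / q) M hR hq hn (hn.trans hna) (by omega) (by omega) hMR hnr
      (by omega) hna N hN
    have h6 : (Q : Set Z2) = strip q a (a + a / q) := by
      ext f
      exact hQ f
    rw [h6]
    exact h5
  · exact one_sub_ratio hb (h4 Q hQ)

/-- the big cell -/
theorem row_big (hSepM : StmtSepM) (hPos : StmtPos) (hb : 0 < b) (hY : 0 < helicity b)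
    (hV : 0 < V) (hq : 1 ≤ q) (hκ : 0 ≤ κ) (hR : 2 ≤ R) (hqn : q < n)
    (hna : n ≤ a) (haM : a < M) (hMR : M ≤ R) (hnr : 2 * n ≤ r)
    (hb1 : ∀ f, f ∉ strip q 1 a → bump r κ x y s f = 0) {x' : ℝ} (hx' : x' * r ≤ a) {t : ℝ}
    (hMid : ∀ Q : Finset Z2, (∀ f ∈ Q, x' * (r : ℝ) ≤ -(f.1 : ℝ)) →
      Zρ b (SB R r \ Q) (fun f => bump r κ x y s f - bump r κ x y s (mir r f)) ≤
        t * Zρ b (SB R r \ Q) (fun f => bump r κ x y s f + bump r κ x y s (mir r f))) :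
    Row b R r (rho (helicity b) V q n0 r κ x y s)
      (fun N => Arm (SB R r) (tgt q r n M) (strip q a M) N) (1 - t) := by
  classical
  obtain ⟨Q, hQ⟩ := exists_stripF hq a M
  refine ⟨strip q 1 a, mir r ⁻¹' strip q 1 M, Q, bump r κ x y s,
    fun f => bump r κ x y s (mir r f), fun f => ?_, hb1, fun f hf => ?_,
    fun N N' hN h => Arm_mono hN h, fun N hN => ?_, ?_⟩
  · exact ⟨bump_nonneg hκ _ _ _ _ _, bump_nonneg hκ _ _ _ _ _, bumps_le_rho hPos hY hV hq f⟩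
  · exact hb1 _ fun h => hf (strip_mono (le_refl _) haM.le h)
  · have h5 := hSepM R r q n a M M hR hq hqn (by omega) haM (le_refl _) hMR hnr
      (by omega) hna N hN
    have h6 : (Q : Set Z2) = strip q a M := by
      ext f
      exact hQ f
    rw [h6]
    exact h5
  · refine one_sub_ratio hb (hMid Q fun f hf => ?_)
    have h6 := ((hQ f).1 hf).2.1
    have h7 : (a : ℝ) ≤ -(f.1 : ℝ) := by exact_mod_cast h6
    exact hx'.trans h7

/-- the middle -/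
theorem row_mid (hPos : StmtPos) (hb : 0 < b) (hY : 0 < helicity b)
    (hV : 0 < V) (hq : 1 ≤ q) (hκ : 0 ≤ κ)
    (hb1 : ∀ f, f ∉ strip q 1 M → bump r κ x y s f = 0) {x' : ℝ} {t : ℝ}
    (hMid : ∀ Q : Finset Z2, (∀ f ∈ Q, x' * (r : ℝ) ≤ -(f.1 : ℝ)) →
      Zρ b (SB R r \ Q) (fun f => bump r κ x y s f - bump r κ x y s (mir r f)) ≤
        t * Zρ b (SB R r \ Q) (fun f => bump r κ x y s f + bump r κ x y s (mir r f))) :
    Row b R r (rho (helicity b) V q n0 r κ x y s)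
      (fun N => ¬ Jn (SB R r) Nᶜ (strip q 1 M) (mir r ⁻¹' strip q 1 M)) (1 - t) := by
  classical
  refine ⟨strip q 1 M, mir r ⁻¹' strip q 1 M, ∅, bump r κ x y s,
    fun f => bump r κ x y s (mir r f), fun f => ?_, hb1, fun f hf => ?_,
    fun N N' hN h h' => ?_, fun N hN => ?_, ?_⟩
  · exact ⟨bump_nonneg hκ _ _ _ _ _, bump_nonneg hκ _ _ _ _ _, bumps_le_rho hPos hY hV hq f⟩
  · exact hb1 _ hf
  · exact h (Jn_mono (Set.compl_subset_compl.2 hN) (fun _ => id) (fun _ => id) h')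
  · rw [Finset.coe_empty, Set.union_empty]
    exact hN
  · exact one_sub_ratio hb (hMid ∅ fun f hf => absurd hf (Finset.notMem_empty f))

end

end Vale.Agent.P159.T1.D.H172
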